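import Vale.Agent.P245.K.Iface
import Vale.Agent.P245.H464.Pos2

/-!
P245, KLS by moment maps: row CHAIN, third independent copy (helper952).
`StmtStep → StmtBase0 → StmtGap → StmtChain`.
-/

set_option linter.all false

open MeasureTheory Filter Topology Set
open scoped NNReal ENNReal ContDiff
open Vale.Agent.P227.M Vale.Agent.P227.M.K814 Vale.Agent.P254.SN

namespace Vale.Agent.P245.K3.Chain

open Vale.Agent.P245.K
open Vale.Agent.P245.H464 (TE Lt Sq)

variable {n : ℕ} {V : E n → ℝ} {t : E n → Matrix (Fin n) (Fin n) ℝ} {c C : ℝ}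

theorem MF.mono {G : E n → Matrix (Fin n) (Fin n) ℝ} {DG : Fin n → E n → Matrix (Fin n) (Fin n) ℝ}
    {d B B' : ℝ} (h : MF V G DG d B) (hB : B ≤ B') : MF V G DG d B' where
  d_pos := h.d_pos
  symm := h.symm
  low := h.low
  upp := by
    filter_upwards [h.upp] with x hx i j
    exact (hx i j).trans hB
  h1 := h.h1
  dsymm := h.dsymm
  dupp := by
    filter_upwards [h.dupp] with x hx a i j
    exact (hx a i j).trans hB

/-- state of the chain at level `k` -/
structure Lev (V : E n → ℝ) (t : E n → Matrix (Fin n) (Fin n) ℝ) (c B₀ : ℝ) (k : ℕ)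
    (G AG : E n → Matrix (Fin n) (Fin n) ℝ) (DG : Fin n → E n → Matrix (Fin n) (Fin n) ℝ) : Prop where
  mf : ∃ B, MF V G DG c B ∧ ∀ᵐ x, ∀ i j, |AG x i j| ≤ B
  dom : ∀ i j, Dom V t (fun x => G x i j) (fun a x => DG a x i j) (fun x => AG x i j)
  ale : Mle AG G
  cs : 1 ≤ k → CS t G DG (6 / ((k : ℝ) + 2))
  bG : ∀ᵐ x, ∀ i j, |G x i j| ≤ B₀

/-- solve entrywise, symmetric choice -/
theorem solve (h : Base V t c C) {s : ℝ} (hs : 0 < s) {G : E n → Matrix (Fin n) (Fin n) ℝ}
    (hG : ∀ x i j, G x i j = G x j i) (hL : ∀ i j, L2 V (fun x => G x i j)) :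
    ∃ (G' AG' : E n → Matrix (Fin n) (Fin n) ℝ) (DG' : Fin n → E n → Matrix (Fin n) (Fin n) ℝ),
      (∀ i j, Dom V t (fun x => G' x i j) (fun a x => DG' a x i j) (fun x => AG' x i j)) ∧
      (∀ x i j, G' x i j = G' x j i) ∧ (∀ a x i j, DG' a x i j = DG' a x j i) ∧
      (∀ x i j, G' x i j + s * AG' x i j = G x i j) := by
  have key : ∀ i j : Fin n, ∃ (u : E n → ℝ) (Du : Fin n → E n → ℝ) (Au : E n → ℝ),
      Dom V t u Du Au ∧ ∀ x, u x + s * Au x = G x i j := by
    intro i j
    obtain ⟨f, u, Du, Au, hd, he⟩ := Vale.Agent.P245.H464.total h.toTE (hL i j).1 (hL i j).2 hs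
    exact ⟨u, Du, Au, ⟨f, hd⟩, he⟩
  choose u Du Au hd he using key
  refine ⟨fun x => Matrix.of fun i j => u (min i j) (max i j) x,
    fun x => Matrix.of fun i j => Au (min i j) (max i j) x,
    fun a x => Matrix.of fun i j => Du (min i j) (max i j) a x, fun i j => hd _ _, ?_, ?_, ?_⟩
  · intro x i j
    simp only [Matrix.of_apply, min_comm i j, max_comm i j]
  · intro a x i j
    simp only [Matrix.of_apply, min_comm i j, max_comm i j]
  · intro x i j
    simp only [Matrix.of_apply]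
    rw [he]
    rcases le_total i j with hij | hij
    · rw [min_eq_left hij, max_eq_right hij]
    · rw [min_eq_right hij, max_eq_left hij, hG]

theorem next (hStep : StmtStep) (hBase0 : StmtBase0) (h : Base V t c C) {B₀ : ℝ} (k : ℕ)
    {G AG : E n → Matrix (Fin n) (Fin n) ℝ} {DG : Fin n → E n → Matrix (Fin n) (Fin n) ℝ}
    (hk0 : k = 0 → G = t) (hl : Lev V t c B₀ k G AG DG) :
    ∃ (G' AG' : E n → Matrix (Fin n) (Fin n) ℝ) (DG' : Fin n → E n → Matrix (Fin n) (Fin n) ℝ),
      Lev V t c B₀ (k + 1) G' AG' DG' ∧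
      ∀ x i j, G' x i j + (1 / ((k : ℝ) + 1)) * AG' x i j = G x i j := by
  obtain ⟨B, hmf, hAB⟩ := hl.mf
  have hs : (0 : ℝ) < 1 / ((k : ℝ) + 1) := by positivity
  obtain ⟨G', AG', DG', hd, hs1, hs2, he⟩ := solve h hs hmf.symm (fun i j => (hmf.h1 i j).u2)
  have hmain : (∃ B', MF V G' DG' c B') ∧ Mle AG' G' ∧ CS t G' DG' (6 / (((k + 1 : ℕ) : ℝ) + 2)) := by
    rcases Nat.eq_zero_or_pos k with hk | hk
    · subst hk
      obtain ⟨B1, At, Dt', -, -, -, -, hfin⟩ := hBase0 n V t c C h
      have h1 := hfin G' AG' DG' hd hs1 hs2 (Eventually.of_forall fun x i j => by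
        have := he x i j
        rw [hk0 rfl] at this
        rw [← this]
        norm_num)
      refine ⟨h1.1, h1.2.1, ?_⟩
      have e : (6 : ℝ) / (((0 + 1 : ℕ) : ℝ) + 2) = 2 := by norm_num
      rw [e]; exact h1.2.2
    · have h1 := hStep n V t c C h (1 / ((k : ℝ) + 1)) hs c B (6 / ((k : ℝ) + 2)) G AG DG (by positivity)
        hmf hl.dom hl.ale (hl.cs hk) G' AG' DG' hd hs1 hs2 (Eventually.of_forall fun x => he x)
      refine ⟨h1.1, h1.2.1, ?_⟩
      have e : (6 : ℝ) / ((k : ℝ) + 2) * (1 + 1 / ((k : ℝ) + 1)) / (1 + 2 * (1 / ((k : ℝ) + 1))) =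
          6 / (((k + 1 : ℕ) : ℝ) + 2) := by
        have hk' : (0 : ℝ) < k := by exact_mod_cast hk
        push_cast
        field_simp
        ring
      rw [← e]; exact h1.2.2
  obtain ⟨⟨B', hmf'⟩, hale, hcs⟩ := hmain
  refine ⟨G', AG', DG', ⟨⟨max B' (((k : ℝ) + 1) * (B + B')), MF.mono hmf' (le_max_left _ _), ?_⟩, hd, hale,
    fun _ => hcs, ?_⟩, he⟩
  · filter_upwards [hmf.upp, hmf'.upp] with x h1 h2 i j
    refine le_trans ?_ (le_max_right _ _)
    have h3 : AG' x i j = ((k : ℝ) + 1) * (G x i j - G' x i j) := by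
      rw [← he x i j]
      field_simp
      ring
    rw [h3, abs_mul, abs_of_pos (by positivity : (0 : ℝ) < (k : ℝ) + 1)]
    refine mul_le_mul_of_nonneg_left ?_ (by positivity)
    refine (abs_sub _ _).trans ?_
    exact add_le_add (h1 i j) (h2 i j)
  · have h1 : ∀ i j : Fin n, ∀ᵐ x, |G' x i j| ≤ B₀ := by
      intro i j
      obtain ⟨f, hf⟩ := hd i j
      have h2 := Vale.Agent.P245.H464.Dom.le h.toTE hf hs (M := B₀) (by
        filter_upwards [hl.bG] with x hx
        rw [he]
        exact (abs_le.1 (hx i j)).2)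
      have h3 := Vale.Agent.P245.H464.Dom.ge h.toTE hf hs (M := -B₀) (by
        filter_upwards [hl.bG] with x hx
        rw [he]
        exact (abs_le.1 (hx i j)).1)
      filter_upwards [h2, h3] with x h4 h5
      exact abs_le.2 ⟨h5, h4⟩
    have h2 : ∀ᵐ x, ∀ i, ∀ j, |G' x i j| ≤ B₀ := by
      rw [ae_all_iff]; intro i
      rw [ae_all_iff]; intro j
      exact h1 i j
    exact h2

theorem I_lin {f g : E n → ℝ} (hf : Integrable (fun x => f x * Real.exp (-V x)))
    (hg : Integrable (fun x => g x * Real.exp (-V x))) (a b : ℝ) :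
    I V (fun x => a * f x + b * g x) = a * I V f + b * I V g := by
  have h : I V (fun x => a * f x + b * g x) =
      ∫ x, (a * (f x * Real.exp (-V x)) + b * (g x * Real.exp (-V x))) := by
    unfold I
    congr 1; ext x
    ring
  rw [h, integral_add (hf.const_mul a) (hg.const_mul b), integral_const_mul, integral_const_mul]
  rfl

/-- decay of a resolvent chain of mean zero functions -/
theorem decay (hGap : StmtGap) (h : Base V t c C) {u v Au Av : E n → ℝ} {Du Dv : Fin n → E n → ℝ}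
    (hv : Dom V t v Dv Av) (hu : Sq V u) (k : ℕ) (he : ∀ x, v x + (1 / ((k : ℝ) + 1)) * Av x = u x)
    (hm : I V v = 0) :
    I V (fun x => v x ^ 2) ≤ (((k : ℝ) + 1) / ((k : ℝ) + 2)) ^ 2 * I V (fun x => u x ^ 2) := by
  have hV : Continuous V := h.toTE.V2.continuous
  obtain ⟨f, hf⟩ := hv
  have hg := hGap n V t c C h v Av Dv ⟨f, hf⟩ hm
  set s : ℝ := 1 / ((k : ℝ) + 1) with hs
  have hs0 : 0 < s := by rw [hs]; positivity
  have i1 := Sq.int hV hf.su hf.su
  have i2 := Sq.int hV hf.su hf.sA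
  have i3 := Sq.int hV hu hu
  have i4 := Sq.int hV hu hf.su
  have e1 : I V (fun x => u x * v x) = I V (fun x => v x ^ 2) + s * I V (fun x => v x * Av x) := by
    have e := I_lin (V := V) (f := fun x => v x ^ 2) (g := fun x => v x * Av x) (by simpa [sq] using i1) i2 1 s
    rw [one_mul] at e
    rw [← e]
    congr 1; ext x
    rw [← he x]; ring
  have e2 : I V (fun x => (u x - (1 + s) * v x) ^ 2) =
      I V (fun x => u x ^ 2) + ((-2 * (1 + s)) * I V (fun x => u x * v x) + (1 + s) ^ 2 * I V (fun x => v x ^ 2)) := by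
    have j1 : Integrable (fun x => v x ^ 2 * Real.exp (-V x)) := by simpa [sq] using i1
    have j3 : Integrable (fun x => u x ^ 2 * Real.exp (-V x)) := by simpa [sq] using i3
    have e := I_lin (V := V) (f := fun x => u x * v x) (g := fun x => v x ^ 2) i4 j1 (-2 * (1 + s)) ((1 + s) ^ 2)
    have j5 : Integrable (fun x => (-2 * (1 + s) * (u x * v x) + (1 + s) ^ 2 * v x ^ 2) * Real.exp (-V x)) := by
      refine ((i4.const_mul (-2 * (1 + s))).add (j1.const_mul ((1 + s) ^ 2))).congr
        (Eventually.of_forall fun x => ?_)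
      simp only [Pi.add_apply]
      ring
    have e' := I_lin (V := V) (f := fun x => u x ^ 2)
      (g := fun x => -2 * (1 + s) * (u x * v x) + (1 + s) ^ 2 * v x ^ 2) j3 j5 1 1
    rw [one_mul, one_mul, e] at e'
    rw [← e']
    congr 1; ext x
    ring
  have e3 : 0 ≤ I V (fun x => (u x - (1 + s) * v x) ^ 2) := by
    unfold I
    exact integral_nonneg fun x => mul_nonneg (sq_nonneg _) (Real.exp_pos _).le
  have e4 : (1 + s) * I V (fun x => v x ^ 2) ≤ I V (fun x => u x * v x) := by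
    rw [e1]
    nlinarith [mul_le_mul_of_nonneg_left hg hs0.le]
  have e5 : (1 + s) ^ 2 * I V (fun x => v x ^ 2) ≤ I V (fun x => u x ^ 2) := by
    nlinarith [mul_le_mul_of_nonneg_left e4 (by positivity : (0 : ℝ) ≤ 1 + s)]
  have e6 : (((k : ℝ) + 1) / ((k : ℝ) + 2)) = 1 / (1 + s) := by
    rw [hs]
    field_simp
    ring
  rw [e6, div_pow, one_pow, div_mul_eq_mul_div, one_mul, le_div_iff₀ (by positivity)]
  linarith

theorem I_const (V : E n → ℝ) (m : ℝ) : I V (fun _ => m) = m * ∫ x, Real.exp (-V x) := by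
  unfold I
  rw [integral_const_mul]

/-- **CHAIN** -/
theorem chain (hStep : StmtStep) (hBase0 : StmtBase0) (hGap : StmtGap) : StmtChain := by
  intro n V t c C h
  have hV : Continuous V := h.toTE.V2.continuous
  obtain ⟨c1, C1, hReg⟩ := h.reg
  obtain ⟨B₀, At, Dt', hmf0, hdom0, hA0, hle0, -⟩ := hBase0 n V t c C h
  have hl0 : Lev V t c B₀ 0 t At Dt' :=
    ⟨⟨B₀, hmf0, hA0⟩, hdom0, hle0, fun h0 => absurd h0 (by norm_num), hmf0.upp⟩
  -- the sequence
  let T := (E n → Matrix (Fin n) (Fin n) ℝ) × (E n → Matrix (Fin n) (Fin n) ℝ) ×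
    (Fin n → E n → Matrix (Fin n) (Fin n) ℝ)
  have key : ∀ (k : ℕ) (p : T), ((k = 0 → p.1 = t) ∧ Lev V t c B₀ k p.1 p.2.1 p.2.2) →
      ∃ q : T, Lev V t c B₀ (k + 1) q.1 q.2.1 q.2.2 ∧
        ∀ x i j, q.1 x i j + (1 / ((k : ℝ) + 1)) * q.2.1 x i j = p.1 x i j := by
    rintro k p ⟨hp0, hp⟩
    obtain ⟨G', AG', DG', h1, h2⟩ := next hStep hBase0 h k hp0 hp
    exact ⟨(G', AG', DG'), h1, h2⟩
  haveI : Nonempty T := ⟨(t, At, Dt')⟩
  choose! F hF using key
  let S : ℕ → T := fun k => Nat.rec (t, At, Dt') (fun k p => F k p) k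
  have hS0 : S 0 = (t, At, Dt') := rfl
  have hS1 : ∀ k, S (k + 1) = F k (S k) := fun k => rfl
  have hS : ∀ k, (k = 0 → (S k).1 = t) ∧ Lev V t c B₀ k (S k).1 (S k).2.1 (S k).2.2 := by
    intro k
    induction k with
    | zero => exact ⟨fun _ => rfl, hl0⟩
    | succ k ih => exact ⟨fun h0 => absurd h0 (Nat.succ_ne_zero k), (hF k (S k) ih).1⟩
  have hrel : ∀ k : ℕ, ∀ x i j, (S (k + 1)).1 x i j + (1 / ((k : ℝ) + 1)) * (S (k + 1)).2.1 x i j =
      (S k).1 x i j := fun k => (hF k (S k) (hS k)).2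
  have hmfB := fun k => (hS k).2.mf
  choose B hB using hmfB
  refine ⟨B, fun k => (S k).1, fun k => (S k).2.1, fun k => (S k).2.2, rfl, fun k => (hB k).1,
    fun k i j => (hS k).2.dom i j, fun k => (hB k).2, fun k => Eventually.of_forall (hrel k),
    fun k => (hS k).2.ale, fun k hk => (hS k).2.cs hk, ?_, ⟨B₀, fun k => (hS k).2.bG⟩, ?_⟩
  · intro k hk
    obtain ⟨m, rfl⟩ : ∃ m, k = m + 1 := ⟨k - 1, by omega⟩
    filter_upwards [(hS (m + 1)).2.ale] with x hx v
    have h1 := hx v
    have hk' : (0 : ℝ) < ((m + 1 : ℕ) : ℝ) := by exact_mod_cast hk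
    have e1 : ∑ i, ∑ j, (S (m + 1 - 1)).1 x i j * v i * v j =
        (∑ i, ∑ j, (S (m + 1)).1 x i j * v i * v j) +
          (1 / ((m : ℝ) + 1)) * ∑ i, ∑ j, (S (m + 1)).2.1 x i j * v i * v j := by
      rw [Finset.mul_sum, ← Finset.sum_add_distrib]
      refine Finset.sum_congr rfl fun i _ => ?_
      rw [Finset.mul_sum, ← Finset.sum_add_distrib]
      refine Finset.sum_congr rfl fun j _ => ?_
      rw [Nat.add_sub_cancel, ← hrel m x i j]
      ring
    have e2 : ∑ i, ∑ j, ((1 + 1 / (((m + 1 : ℕ) : ℝ))) • (S (m + 1)).1 x) i j * v i * v j =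
        (∑ i, ∑ j, (S (m + 1)).1 x i j * v i * v j) +
          (1 / ((m : ℝ) + 1)) * ∑ i, ∑ j, (S (m + 1)).1 x i j * v i * v j := by
      rw [Finset.mul_sum, ← Finset.sum_add_distrib]
      refine Finset.sum_congr rfl fun i _ => ?_
      rw [Finset.mul_sum, ← Finset.sum_add_distrib]
      refine Finset.sum_congr rfl fun j _ => ?_
      rw [Matrix.smul_apply, smul_eq_mul]
      push_cast
      ring
    show ∑ i, ∑ j, (S (m + 1 - 1)).1 x i j * v i * v j ≤
      ∑ i, ∑ j, ((1 + 1 / (((m + 1 : ℕ) : ℝ))) • (S (m + 1)).1 x) i j * v i * v j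
    rw [e1, e2]
    have h3 : (0 : ℝ) ≤ 1 / ((m : ℝ) + 1) := by positivity
    have h4 := mul_le_mul_of_nonneg_left h1 h3
    linarith
  · intro i j
    set m : ℝ := Ex V (fun x => t x i j) with hm
    have hTE := h.toTE
    -- mean zero functions
    have hZ : (∫ x, Real.exp (-V x)) ≠ 0 := hReg.Z_pos.ne'
    have hdk : ∀ k, ∃ f, Vale.Agent.P245.H464.Dom V t f (fun x => (S k).1 x i j - m)
        (fun a x => (S k).2.2 a x i j - 0) (fun x => (S k).2.1 x i j - 0) := by
      intro k
      obtain ⟨f, hf⟩ := (hS k).2.dom i j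
      exact ⟨_, hf.sub hTE.toTB (Vale.Agent.P245.H464.dom_const hTE m)⟩
    have hone := Vale.Agent.P245.H464.dom_const hTE 1
    have hmean : ∀ k, I V (fun x => (S k).1 x i j) = I V (fun x => t x i j) := by
      intro k
      induction k with
      | zero => rfl
      | succ k ih =>
        obtain ⟨f, hf⟩ := (hS (k + 1)).2.dom i j
        have h0 := hf.energy hTE.toTB hone
        have h1 : I V (fun x => (S (k + 1)).2.1 x i j) = 0 := by
          have e1 : I V (fun x => (S (k + 1)).2.1 x i j * 1) = 0 := by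
            rw [h0]
            unfold I Vale.Agent.P245.H464.GG
            simp
          simpa using e1
        rw [← ih]
        have i1 := Sq.int hV hf.su hone.su
        have i2 := Sq.int hV hf.sA hone.su
        have e2 : I V (fun x => (S k).1 x i j) = I V (fun x => (S (k + 1)).1 x i j) +
            (1 / ((k : ℝ) + 1)) * I V (fun x => (S (k + 1)).2.1 x i j) := by
          have e := I_lin (V := V) (f := fun x => (S (k + 1)).1 x i j) (g := fun x => (S (k + 1)).2.1 x i j)
            (by simpa using i1) (by simpa using i2) 1 (1 / ((k : ℝ) + 1))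
          rw [one_mul] at e
          rw [← e]
          congr 1; ext x
          rw [← hrel k x i j]; ring
        rw [e2, h1]; ring
    have hz : ∀ k, I V (fun x => (S k).1 x i j - m) = 0 := by
      intro k
      obtain ⟨f, hf⟩ := (hS k).2.dom i j
      have i1 := Sq.int hV hf.su hone.su
      have i2 := Sq.int hV hone.su hone.su
      have e1 : I V (fun x => (S k).1 x i j - m) = I V (fun x => (S k).1 x i j) - I V (fun _ => m) := by
        have e := I_lin (V := V) (f := fun x => (S k).1 x i j) (g := fun _ => (1 : ℝ))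
          (by simpa using i1) (by simpa using i2) 1 (-m)
        have e2 : I V (fun _ => m) = m * I V (fun _ => (1 : ℝ)) := by
          rw [I_const, I_const, one_mul]
        rw [e2]
        have e3 : I V (fun x => (S k).1 x i j - m) = I V (fun x => 1 * (S k).1 x i j + -m * 1) := by
          congr 1; ext x
          ring
        rw [e3, e]
        ring
      rw [e1, hmean k, I_const]
      have e2 : m * ∫ x, Real.exp (-V x) = I V (fun x => t x i j) := by
        rw [hm]
        exact div_mul_cancel₀ _ hZ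
      rw [e2, sub_self]
    set a : ℕ → ℝ := fun k => I V (fun x => ((S k).1 x i j - m) ^ 2) with ha
    have hdec : ∀ k, a (k + 1) ≤ (((k : ℝ) + 1) / ((k : ℝ) + 2)) ^ 2 * a k := by
      intro k
      obtain ⟨f, hf⟩ := hdk (k + 1)
      obtain ⟨g, hg⟩ := hdk k
      refine decay hGap h (Du := fun a x => 0) (Au := fun x => 0) ⟨f, hf⟩ hg.su k (fun x => ?_) (hz (k + 1))
      have := hrel k x i j
      linarith
    have hbd : ∀ k, a k ≤ a 0 / ((k : ℝ) + 1) ^ 2 := by
      intro k
      induction k with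
      | zero => simp
      | succ k ih =>
        refine (hdec k).trans ?_
        refine (mul_le_mul_of_nonneg_left ih (sq_nonneg _)).trans (le_of_eq ?_)
        push_cast
        field_simp
        ring
    have ha0 : ∀ k, 0 ≤ a k := fun k => by
      simp only [ha]
      unfold I
      exact integral_nonneg fun x => mul_nonneg (sq_nonneg _) (Real.exp_pos _).le
    have hlim : Tendsto (fun k : ℕ => a 0 / ((k : ℝ) + 1) ^ 2) atTop (𝓝 0) := by
      have h1 := (tendsto_one_div_add_atTop_nhds_zero_nat (𝕜 := ℝ)).pow 2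
      have h2 := h1.const_mul (a 0)
      simp only [ne_eq, OfNat.ofNat_ne_zero, not_false_eq_true, zero_pow, mul_zero] at h2
      refine h2.congr fun k => ?_
      rw [div_pow, one_pow]
      ring
    show Tendsto (fun k => I V (fun x => ((S k).1 x i j - m) ^ 2)) atTop (𝓝 0)
    exact squeeze_zero ha0 hbd hlim

end Vale.Agent.P245.K3.Chain
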