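import Vale.Agent.P245.H464.Ops
import Vale.Agent.P245.K.W
import Vale.Agent.P245.K.R1S

/-!
P245, KLS block, row OP5 (helper717): the spectral gap 1 of `A = -L`, `StmtGap`.

Bochner (`StmtW` with `β = ∇f`) gives `|A u|² ≥ ⟨A u, u⟩` on `Dom`; the resolvent `v = (1 + s A)⁻¹ u`
satisfies `E(u) ≥ (1 + 2 s) E(v)` and `|u|² ≤ |v|² + 2 s E(v) + (s/2) (E(u) - E(v))`, so a Poincaré
inequality with any constant `K` (library, `Reg V`) improves itself to the constant one.
-/

set_option linter.all false

open MeasureTheory Filter Topology Set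
open scoped NNReal ENNReal ContDiff InnerProductSpace
open Vale.Agent.P227.M Vale.Agent.P227.M.K814 Vale.Agent.P254.SN

namespace Vale.Agent.P245.K3.Gap717

open Vale.Agent.P245.H464 (TE Lt Sq Lim GG I_mono_sq lim_GG sq_test sq_pd sq_L GG_low GG_nonneg)
open Vale.Agent.P245.K

variable {n : ℕ} {V : E n → ℝ} {t : E n → Matrix (Fin n) (Fin n) ℝ} {c C : ℝ}

/-! ## Poincaré inequality for `Reg V` -/

theorem mid_convex {c1 C1 : ℝ} (h : Reg V c1 C1) (x y : E n) :
    V ((2 : ℝ)⁻¹ • (x + y)) ≤ (V x + V y) / 2 - c1 / 8 * ‖x - y‖ ^ 2 := by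
  have hcv : ConvexOn ℝ univ (fun x : E n => V x - c1 / 2 * ‖x‖ ^ 2) := by
    refine LK.H570.convex_of_qf (h.smooth.sub (LK.H570.contDiff_sq c1)) fun x v => ?_
    rw [LK.H570.qf_sub' h.smooth (LK.H570.contDiff_sq c1), LK.H570.qf_sq]
    linarith [h.lower x v]
  have h1 := hcv.2 (mem_univ x) (mem_univ y) (by norm_num : (0 : ℝ) ≤ 2⁻¹)
    (by norm_num : (0 : ℝ) ≤ 2⁻¹) (by norm_num : (2 : ℝ)⁻¹ + 2⁻¹ = 1)
  rw [← smul_add] at h1
  have e1 : ‖(2 : ℝ)⁻¹ • (x + y)‖ ^ 2 = 1 / 4 * (‖x‖ ^ 2 + 2 * inner ℝ x y + ‖y‖ ^ 2) := by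
    rw [norm_smul, mul_pow, norm_add_sq_real]
    norm_num
  have e2 : ‖x - y‖ ^ 2 = ‖x‖ ^ 2 - 2 * inner ℝ x y + ‖y‖ ^ 2 := norm_sub_sq_real x y
  simp only [smul_eq_mul] at h1
  rw [e1] at h1
  rw [e2]
  linarith

theorem pd_inner {f : E n → ℝ} {x : E n} (v : E n) :
    fderiv ℝ f x v = inner ℝ (WithLp.toLp 2 (fun a => pd a f x) : E n) v := by
  have h1 : v = ∑ a, v a • (ei a : E n) := by
    ext i
    simp [ei, Finset.sum_apply, EuclideanSpace.single_apply, Pi.single_apply]
  conv_lhs => rw [h1]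
  rw [map_sum]
  simp only [map_smul, smul_eq_mul]
  rw [PiLp.inner_apply]
  refine Finset.sum_congr rfl fun a _ => ?_
  simp [pd]

theorem poinc_test {c1 C1 : ℝ} (h : Reg V c1 C1) {f : E n → ℝ} (hf : Test f) :
    I V (fun x => f x ^ 2) - (I V f) ^ 2 / I V (fun _ => 1) ≤
      (1 / c1) * I V (fun x => ∑ a, pd a f x ^ 2) := by
  have hV : Continuous V := h.cont
  obtain ⟨A, hA⟩ := h.quad_lower
  have hU : Vale.Agent.P347.Adm V := ⟨hV, c1 / 4, by have := h.c_pos; positivity, A, hA⟩
  have hd : ∀ x, HasFDerivAt f (innerSL ℝ (WithLp.toLp 2 (fun a => pd a f x) : E n)) x := by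
    intro x
    have h1 : HasFDerivAt f (fderiv ℝ f x) x := ((hf.1.differentiable (by simp)) x).hasFDerivAt
    have h2 : fderiv ℝ f x = innerSL ℝ (WithLp.toLp 2 (fun a => pd a f x) : E n) := by
      ext v
      rw [innerSL_apply_apply]
      exact pd_inner v
    rwa [h2] at h1
  have hg : Continuous fun x => (WithLp.toLp 2 (fun a => pd a f x) : E n) := by
    refine (PiLp.continuous_toLp 2 _).comp (continuous_pi fun a => ?_)
    exact (H464.test_pd' hf a).1.continuous
  have h1 := Vale.Agent.P347.poincare_cs h.c_pos hU (mid_convex h) hd hg hf.2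
  have hZ : 0 < ∫ x, Real.exp (-V x) := h.Z_pos
  have key : ∀ g : E n → ℝ, ∫ x, g x ∂(Vale.Agent.P347.gibbs V) = I V g / I V (fun _ => 1) := by
    intro g
    rw [Vale.Agent.P347.gibbs_integral]
    unfold I
    rw [smul_eq_mul, div_eq_inv_mul]
    congr 1
    · congr 1
      refine integral_congr_ae (Eventually.of_forall fun x => ?_)
      simp
    · refine integral_congr_ae (Eventually.of_forall fun x => ?_)
      simp [mul_comm]
  rw [key, key, key] at h1
  have hZ' : 0 < I V (fun _ => 1) := by unfold I; simpa using hZ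
  have e1 : I V (fun x => ‖(WithLp.toLp 2 (fun a => pd a f x) : E n)‖ ^ 2) =
      I V (fun x => ∑ a, pd a f x ^ 2) := by
    unfold I
    refine integral_congr_ae (Eventually.of_forall fun x => ?_)
    simp only []
    rw [← H464.sum_sq_eq]
  rw [e1] at h1
  have h2 := mul_le_mul_of_nonneg_right h1 hZ'.le
  have e2 : (I V (fun x => f x ^ 2) / I V (fun _ => 1) - (I V f / I V (fun _ => 1)) ^ 2) *
      I V (fun _ => 1) = I V (fun x => f x ^ 2) - (I V f) ^ 2 / I V (fun _ => 1) := by
    field_simp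
  have e3 : 1 / c1 * (I V (fun x => ∑ a, pd a f x ^ 2) / I V (fun _ => 1)) * I V (fun _ => 1) =
      1 / c1 * I V (fun x => ∑ a, pd a f x ^ 2) := by
    field_simp
  rw [e2, e3] at h2
  exact h2

/-! ## the closure -/

variable {f : ℕ → E n → ℝ} {u : E n → ℝ} {Du : Fin n → E n → ℝ} {Au : E n → ℝ}

theorem sq_one (hV : Continuous V) (hint : Integrable (fun x => Real.exp (-V x))) :
    Sq V (fun _ => 1) := ⟨measurable_const, by simpa using hint⟩

theorem I_sq_eq (w : E n → ℝ) : I V (fun x => w x ^ 2) = I V (fun x => w x * w x) := by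
  unfold I; congr 1; ext x; ring

/-- Poincaré with some constant, on `Dom` -/
theorem poinc_dom (hB : Base V t c C) : ∃ K : ℝ, 0 ≤ K ∧ ∀ (f : ℕ → E n → ℝ) (u : E n → ℝ)
    (Du : Fin n → E n → ℝ) (Au : E n → ℝ), H464.Dom V t f u Du Au → I V u = 0 →
    I V (fun x => u x ^ 2) ≤ K * I V (fun x => Au x * u x) := by
  obtain ⟨c1, C1, hR⟩ := hB.reg
  have hV : Continuous V := hB.V2.continuous
  have hc1 := hR.c_pos
  have hc := hB.lam_pos
  refine ⟨1 / c1 * (1 / c), by positivity, fun f u Du Au d hu => ?_⟩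
  have s1 := sq_one hV hR.integrable_exp
  -- limits
  have l1 : Tendsto (fun m => I V (fun x => f m x ^ 2)) atTop (𝓝 (I V (fun x => u x ^ 2))) := by
    have := Lim.mul hV (fun m => sq_test hV (d.test m)) (fun m => sq_test hV (d.test m)) d.su d.su
      d.lu d.lu
    rw [I_sq_eq]
    refine this.congr fun m => ?_
    rw [I_sq_eq]
  have l2 : Tendsto (fun m => I V (f m)) atTop (𝓝 (I V u)) := by
    have := Lim.mul hV (fun m => sq_test hV (d.test m)) (fun _ => s1) d.su s1 d.lu (Lim.const _)
    simpa using this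
  have l3 : Tendsto (fun m => I V (fun x => ∑ a, pd a (f m) x ^ 2)) atTop
      (𝓝 (I V (fun x => ∑ a, Du a x ^ 2))) := by
    have e : ∀ w : Fin n → E n → ℝ, (∀ a, Sq V (w a)) → I V (fun x => ∑ a, w a x ^ 2) =
        ∑ a, I V (fun x => w a x * w a x) := by
      intro w hw
      unfold I
      rw [← integral_finsetSum _ fun a _ => Sq.int hV (hw a) (hw a)]
      congr 1; ext x
      rw [Finset.sum_mul]
      exact Finset.sum_congr rfl fun a _ => by ring
    rw [e Du d.sD]
    have e2 : (fun m => I V (fun x => ∑ a, pd a (f m) x ^ 2)) =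
        fun m => ∑ a, I V (fun x => pd a (f m) x * pd a (f m) x) := by
      funext m
      exact e (fun a => pd a (f m)) fun a => sq_pd hV (d.test m) a
    rw [e2]
    exact tendsto_finsetSum _ fun a _ => Lim.mul hV (fun m => sq_pd hV (d.test m) a)
      (fun m => sq_pd hV (d.test m) a) (d.sD a) (d.sD a) (d.lD a) (d.lD a)
  have h1 : I V (fun x => u x ^ 2) - (I V u) ^ 2 / I V (fun _ => 1) ≤
      (1 / c1) * I V (fun x => ∑ a, Du a x ^ 2) :=
    le_of_tendsto_of_tendsto' (l1.sub ((l2.pow 2).div_const _)) (l3.const_mul _)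
      fun m => poinc_test hR (d.test m)
  rw [hu] at h1
  have h2 : c * I V (fun x => ∑ a, Du a x ^ 2) ≤ I V (fun x => Au x * u x) := by
    rw [d.energy hB.toTB d]
    have e : c * I V (fun x => ∑ a, Du a x ^ 2) = I V (fun x => c * ∑ a, Du a x ^ 2) := by
      unfold I
      rw [← integral_const_mul]
      congr 1; ext x; ring
    rw [e]
    refine I_mono_sq ?_ ?_ (Eventually.of_forall fun x => GG_low hB.toTE Du x)
    · have h3 := (integrable_finsetSum Finset.univ fun a _ => (d.sD a).i).const_mul c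
      refine h3.congr (Eventually.of_forall fun x => ?_)
      simp only []
      rw [mul_assoc, Finset.sum_mul]
    · unfold GG
      have e1 : (fun x => (∑ a, ∑ b, t x a b * Du a x * Du b x) * Real.exp (-V x)) =
          fun x => ∑ a, ∑ b, t x a b * Du a x * Du b x * Real.exp (-V x) := by
        funext x
        rw [Finset.sum_mul]
        exact Finset.sum_congr rfl fun a _ => Finset.sum_mul _ _ _
      rw [e1]
      exact integrable_finsetSum _ fun a _ => integrable_finsetSum _ fun b _ =>
        Sq.int hV (H464.sq_t_mul hB.toTB (d.sD a) a b) (d.sD b)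
  have h3 : I V (fun x => ∑ a, Du a x ^ 2) ≤ 1 / c * I V (fun x => Au x * u x) := by
    rw [div_mul_eq_mul_div, one_mul, le_div_iff₀ hc]
    linarith
  have h4 := mul_le_mul_of_nonneg_left h3 (by positivity : (0 : ℝ) ≤ 1 / c1)
  have h5 : (0 : ℝ) ^ 2 / I V (fun _ => 1) = 0 := by simp
  rw [h5, sub_zero] at h1
  rw [mul_assoc]
  linarith

/-- Bochner on test functions -/
theorem boch_test (hB : Base V t c C) {f : E n → ℝ} (hf : Test f) :
    I V (GG t (fun a => pd a f) (fun a => pd a f)) ≤ I V (fun x => (-(Lt t f x)) * (-(Lt t f x))) := by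
  have hV : Continuous V := hB.V2.continuous
  have hl : LCF (fun x a => pd a f x) := fun a => Test.lc (H464.test_pd' hf a)
  have h1 := stmtW n V t c C hB f hf (fun x a => pd a f x) hl
  have h2 : ∀ x, dvg t (fun x a => pd a f x) x = Lt t f x := by
    intro x
    unfold dvg Lt hess
    rfl
  simp only [h2] at h1
  have h3 : I V (fun x => (-(Lt t f x)) * (-(Lt t f x))) = I V (fun x => Lt t f x * Lt t f x) := by
    unfold I; congr 1; ext x; ring
  rw [h3, h1]
  refine I_mono hV (H464.ci_Gam hB.toTF (Test.lc hf) (Test.lc hf).1) (R1S.ci_ee hB.toTE hl hl)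
    (Eventually.of_forall fun x => ?_)
  have h4 : ee t (fun x a => pd a f x) (fun x a => pd a f x) x =
      Q2 (t x) (R1S.dA (fun x a => pd a f x) x) (R1S.dA (fun x a => pd a f x) x) +
        q2 (t x) (fun a => pd a f x) (fun a => pd a f x) := R1S.ee_eq _ _ x
  have h5 := Q2_nonneg (t x) (R1S.posT hB.toTE x) (R1S.dA (fun x a => pd a f x) x)
  have h6 : H464.Gam t f f x = q2 (t x) (fun a => pd a f x) (fun a => pd a f x) := by
    unfold H464.Gam q2
    rfl
  have h7 : GG t (fun a => pd a f) (fun a => pd a f) x = H464.Gam t f f x := rfl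
  rw [h4, ← h6, h7]
  linarith

/-- Bochner on `Dom` -/
theorem boch (hB : Base V t c C) (d : H464.Dom V t f u Du Au) :
    I V (fun x => Au x * u x) ≤ I V (fun x => Au x * Au x) := by
  have hV : Continuous V := hB.V2.continuous
  rw [d.energy hB.toTB d]
  have l1 := Lim.mul hV (fun m => sq_L hB.toTF (d.test m)) (fun m => sq_L hB.toTF (d.test m))
    d.sA d.sA d.lA d.lA
  have l2 := lim_GG hB.toTB (fun m a => sq_pd hV (d.test m) a) (fun m a => sq_pd hV (d.test m) a)
    d.sD d.sD (F := fun m a => pd a (f m)) (F' := fun m a => pd a (f m)) d.lD d.lD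
  exact le_of_tendsto_of_tendsto' l2 l1 fun m => boch_test hB (d.test m)

theorem mean_A (hB : Base V t c C) (d : H464.Dom V t f u Du Au) : I V Au = 0 := by
  have h1 := d.energy hB.toTB (H464.dom_const hB.toTE 1)
  have h2 : I V (fun x => Au x * (1 : ℝ)) = I V Au := by unfold I; congr 1; ext x; ring
  have h3 : I V (GG t Du fun _ _ => 0) = 0 := by
    unfold I GG; simp
  rw [h2] at h1
  rw [h1]
  exact h3

/-- integral of a combination of products of square integrable functions -/
theorem I_add_sq (hV : Continuous V) {a b p q : E n → ℝ} (ha : Sq V a) (hb : Sq V b) (hp : Sq V p)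
    (hq : Sq V q) (r : ℝ) : I V (fun x => a x * b x + r * (p x * q x)) =
    I V (fun x => a x * b x) + r * I V (fun x => p x * q x) := by
  unfold I
  rw [← integral_const_mul, ← integral_add (Sq.int hV ha hb) ((Sq.int hV hp hq).const_mul r)]
  congr 1; ext x; ring

/-- one step -/
theorem step (hB : Base V t c C) (d : H464.Dom V t f u Du Au) {s : ℝ} (hs : 0 < s) {G : ℝ}
    (hG : ∀ (f : ℕ → E n → ℝ) (u : E n → ℝ) (Du : Fin n → E n → ℝ) (Au : E n → ℝ),
      H464.Dom V t f u Du Au → I V u = 0 → I V (fun x => u x ^ 2) ≤ G * I V (fun x => Au x * u x))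
    (hG0 : 0 ≤ G) (hu : I V u = 0) :
    I V (fun x => u x ^ 2) ≤ ((G + 3 * s / 2) / (1 + 2 * s) + s / 2) * I V (fun x => Au x * u x) := by
  have hV : Continuous V := hB.V2.continuous
  obtain ⟨g, v, Dv, Av, d', he⟩ := H464.total hB.toTE d.mu d.iu hs
  have s1 := sq_one hV hB.int
  -- mean of `v`
  have hv : I V v = 0 := by
    have h1 := mean_A hB d'
    have h2 : I V u = I V v + s * I V Av := by
      have h3 := I_add_sq hV d'.su s1 d'.sA s1 s
      simp only [mul_one] at h3
      rw [← h3]
      refine I_congr (Eventually.of_forall fun x => ?_)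
      exact (he x).symm
    rw [h1, mul_zero, add_zero] at h2
    rw [← h2, hu]
  have hGv := hG g v Dv Av d' hv
  have hbo := boch hB d'
  have hEv : 0 ≤ I V (fun x => Av x * v x) := d'.nonneg hB.toTE
  -- `E(u) ≥ E(v) + 2 s |A v|²`
  have dd := (d.sub hB.toTB d').nonneg hB.toTE
  set X := I V (fun x => Av x * v x) with hX
  set Y := I V (fun x => Av x * Av x) with hY
  set Z := I V (fun x => Au x * u x) with hZ
  have hsym : I V (fun x => Au x * v x) = I V (fun x => Av x * u x) := by
    rw [d.symm hB.toTB d']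
    exact I_congr (Eventually.of_forall fun x => by ring)
  have hAvu : I V (fun x => Av x * u x) = X + s * Y := by
    rw [hX, hY, ← I_add_sq hV d'.sA d'.su d'.sA d'.sA s]
    refine I_congr (Eventually.of_forall fun x => ?_)
    rw [← he x]; ring
  have hexp : I V (fun x => (Au x - Av x) * (u x - v x)) = Z - 2 * (X + s * Y) + X := by
    have e1 : I V (fun x => (Au x - Av x) * (u x - v x)) =
        I V (fun x => Au x * (u x - v x) + (-1) * (Av x * (u x - v x))) :=
      I_congr (Eventually.of_forall fun x => by ring)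
    rw [e1, I_add_sq hV d.sA (d.su.sub hV d'.su) d'.sA (d.su.sub hV d'.su) (-1)]
    have e2 : I V (fun x => Au x * (u x - v x)) = Z - (X + s * Y) := by
      have e3 : I V (fun x => Au x * (u x - v x)) = I V (fun x => Au x * u x + (-1) * (Au x * v x)) :=
        I_congr (Eventually.of_forall fun x => by ring)
      rw [e3, I_add_sq hV d.sA d.su d.sA d'.su (-1), hsym, hAvu]
      ring
    have e4 : I V (fun x => Av x * (u x - v x)) = (X + s * Y) - X := by
      have e3 : I V (fun x => Av x * (u x - v x)) = I V (fun x => Av x * u x + (-1) * (Av x * v x)) :=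
        I_congr (Eventually.of_forall fun x => by ring)
      rw [e3, I_add_sq hV d'.sA d.su d'.sA d'.su (-1), hAvu]
      ring
    rw [e2, e4]
    ring
  rw [hexp] at dd
  -- norms
  have hN : I V (fun x => u x ^ 2) = I V (fun x => v x ^ 2) + 2 * s * X + s ^ 2 * Y := by
    have e1 : I V (fun x => u x ^ 2) = I V (fun x => u x * v x + s * (u x * Av x)) :=
      I_congr (Eventually.of_forall fun x => by
        have := he x
        linear_combination (-(u x)) * this)
    rw [e1, I_add_sq hV d.su d'.su d.su d'.sA s]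
    have e2 : I V (fun x => u x * v x) = I V (fun x => v x ^ 2) + s * X := by
      rw [I_sq_eq, hX, ← I_add_sq hV d'.su d'.su d'.sA d'.su s]
      exact I_congr (Eventually.of_forall fun x => by
        have := he x
        linear_combination (-(v x)) * this)
    have e3 : I V (fun x => u x * Av x) = X + s * Y := by
      rw [← hAvu]
      exact I_congr (Eventually.of_forall fun x => by ring)
    rw [e2, e3]
    ring
  -- arithmetic
  have h1 : s ^ 2 * Y ≤ s / 2 * (Z - X) := by
    have : 2 * s * Y ≤ Z - X := by nlinarith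
    nlinarith
  have h2 : (1 + 2 * s) * X ≤ Z := by nlinarith
  have h3 : I V (fun x => u x ^ 2) ≤ (G + 3 * s / 2) * X + s / 2 * Z := by
    rw [hN]; nlinarith
  have h4 : X ≤ Z / (1 + 2 * s) := by
    rw [le_div_iff₀ (by positivity)]; linarith
  have h5 : (G + 3 * s / 2) * X ≤ (G + 3 * s / 2) * (Z / (1 + 2 * s)) :=
    mul_le_mul_of_nonneg_left h4 (by positivity)
  have h6 : ((G + 3 * s / 2) / (1 + 2 * s) + s / 2) * Z =
      (G + 3 * s / 2) * (Z / (1 + 2 * s)) + s / 2 * Z := by ring
  rw [h6]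
  linarith

/-- **OP5**: the spectral gap -/
theorem gap : StmtGap := by
  intro n V t c C hB u Au Du hd hu
  obtain ⟨f, d⟩ := hd
  obtain ⟨K, hK, hP⟩ := poinc_dom hB
  -- iteration
  have hit : ∀ s : ℝ, 0 < s → ∀ k : ℕ, ∀ (f : ℕ → E n → ℝ) (u : E n → ℝ) (Du : Fin n → E n → ℝ)
      (Au : E n → ℝ), H464.Dom V t f u Du Au → I V u = 0 →
      I V (fun x => u x ^ 2) ≤ (1 + s / 2 + K / (1 + 2 * s) ^ k) * I V (fun x => Au x * u x) := by
    intro s hs k
    induction k with
    | zero =>
      intro f u Du Au d hu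
      refine (hP f u Du Au d hu).trans ?_
      have h0 := d.nonneg hB.toTE
      refine mul_le_mul_of_nonneg_right ?_ h0
      simp only [pow_zero, div_one]
      linarith
    | succ k ih =>
      intro f u Du Au d hu
      have h1 := step hB d hs ih (by positivity) hu
      have e : (1 + s / 2 + K / (1 + 2 * s) ^ k + 3 * s / 2) / (1 + 2 * s) + s / 2 =
          1 + s / 2 + K / (1 + 2 * s) ^ (k + 1) := by
        have h2 : (1 + 2 * s) ≠ 0 := by positivity
        field_simp
        ring
      rwa [e] at h1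
  have hlim : ∀ s : ℝ, 0 < s → I V (fun x => u x ^ 2) ≤ (1 + s / 2) * I V (fun x => Au x * u x) := by
    intro s hs
    have h1 : Tendsto (fun k : ℕ => (1 + s / 2 + K / (1 + 2 * s) ^ k) * I V (fun x => Au x * u x))
        atTop (𝓝 ((1 + s / 2 + 0) * I V (fun x => Au x * u x))) := by
      refine Tendsto.mul_const _ (Tendsto.const_add _ ?_)
      exact tendsto_const_nhds.div_atTop (tendsto_pow_atTop_atTop_of_one_lt (by linarith))
    rw [add_zero] at h1
    exact ge_of_tendsto' h1 fun k => hit s hs k f u Du Au d hu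
  have h2 : I V (fun x => u x ^ 2) ≤ I V (fun x => Au x * u x) := by
    have h3 : Tendsto (fun k : ℕ => (1 + (1 / ((k : ℝ) + 1)) / 2) * I V (fun x => Au x * u x)) atTop
        (𝓝 ((1 + 0 / 2) * I V (fun x => Au x * u x))) :=
      ((tendsto_one_div_add_atTop_nhds_zero_nat.div_const 2).const_add 1).mul_const _
    have h4 := ge_of_tendsto' h3 fun k : ℕ => hlim (1 / ((k : ℝ) + 1)) (by positivity)
    simpa using h4
  refine h2.trans (le_of_eq ?_)
  exact I_congr (Eventually.of_forall fun x => by ring)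

end Vale.Agent.P245.K3.Gap717
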