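import Vale.Agent.P245.K3.InstD

/-!
P245, KLS block, row INST (independent copy, helper110), part E: `StmtK` from the other rows.
-/

set_option linter.all false

open MeasureTheory Filter Topology
open scoped NNReal ENNReal ContDiff
open Vale.Agent.P227.M Vale.Agent.P227.M.K814 Vale.Agent.P254 Vale.Agent.P254.SN

namespace Vale.Agent.P245.K3

open Vale.Agent.P245.H464 (TE Lt mu mu_ac ac_mu integral_mu memLp_iff exists_meas total)
open Vale.Agent.P245.K.OP3 (DomE L2to inner_toLp1 finite_mu memLp_test integral_muI)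
open Vale.Agent.P245.K (Base KG BG Iso Tends MF CS Mle ip StmtK StmtAbs StmtChain StmtIdent StmtGap Abs)

variable {n : ℕ} {V : E n → ℝ} {t : E n → Matrix (Fin n) (Fin n) ℝ} {c C c1 C1 : ℝ}

/-- representatives of an element of the graph -/
structure Rep (V : E n → ℝ) (t : E n → Matrix (Fin n) (Fin n) ℝ) (z y : HV V)
    (z' y' : Fin n → E n → ℝ) (Dz : Fin n → Fin n → E n → ℝ) : Prop where
  dom : ∀ i, K.Dom V t (z' i) (Dz i) (y' i)
  ez : ∀ i, (z i : E n → ℝ) =ᵐ[mu V] z' i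
  ey : ∀ i, (y i : E n → ℝ) =ᵐ[mu V] y' i

theorem exists_rep (hT : TE V t c C) {z y : HV V} (h : GrV V t z y) :
    ∃ z' y' Dz, Rep V t z y z' y' Dz := by
  choose z' y' Dz h1 h2 h3 using fun i => gr_dom hT (h i)
  exact ⟨z', y', Dz, h1, h2, h3⟩

/-- data of the chain -/
structure Ch (V : E n → ℝ) (t : E n → Matrix (Fin n) (Fin n) ℝ) (c : ℝ) (B : ℕ → ℝ) (B' : ℝ)
    (G AG : ℕ → E n → Matrix (Fin n) (Fin n) ℝ)
    (DG : ℕ → Fin n → E n → Matrix (Fin n) (Fin n) ℝ) : Prop where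
  g0 : G 0 = t
  mf : ∀ k, MF V (G k) (DG k) c (B k)
  dom : ∀ k i j, K.Dom V t (fun x => G k x i j) (fun a x => DG k a x i j) (fun x => AG k x i j)
  agb : ∀ k, ∀ᵐ x, ∀ i j, |AG k x i j| ≤ B k
  step : ∀ k : ℕ, ∀ᵐ x, ∀ i j, G (k + 1) x i j + (1 / ((k : ℝ) + 1)) * AG (k + 1) x i j = G k x i j
  cs : ∀ k : ℕ, 1 ≤ k → CS t (G k) (DG k) (6 / ((k : ℝ) + 2))
  mono : ∀ k : ℕ, 1 ≤ k → Mle (G (k - 1)) (fun x => (1 + 1 / (k : ℝ)) • G k x)
  bnd : ∀ k, ∀ᵐ x, ∀ i j, |G k x i j| ≤ B'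
  lim : ∀ i j, Tends V (fun k x => G k x i j) (fun _ => Ex V (fun x => t x i j))

section
variable {B : ℕ → ℝ} {B' : ℝ} {G AG : ℕ → E n → Matrix (Fin n) (Fin n) ℝ}
  {DG : ℕ → Fin n → E n → Matrix (Fin n) (Fin n) ℝ}

theorem Ch.bm (h : Ch V t c B B' G AG DG) (k : ℕ) : BM V (G k) B' := fun i j =>
  ⟨((h.mf k).h1 i j).u2.1, by
    filter_upwards [(mu_ac V).ae_le (h.bnd k)] with x hx
    exact hx i j⟩

theorem Ch.abm (h : Ch V t c B B' G AG DG) (k : ℕ) : BM V (AG k) (B k) := fun i j => by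
  obtain ⟨f, hf⟩ := h.dom k i j
  refine ⟨hf.mA, ?_⟩
  filter_upwards [(mu_ac V).ae_le (h.agb k)] with x hx
  exact hx i j

/-- symmetric -/
theorem Ch.bsym (h : Ch V t c B B' G AG DG) (k : ℕ) (z e : HV V) :
    Bf (h.bm k) z e = Bf (h.bm k) e z := by
  rw [Bf_int, Bf_int]
  refine integral_congr_ae (Eventually.of_forall fun x => ?_)
  show ∑ i, ∑ j, G k x i j * z i x * e j x = ∑ i, ∑ j, G k x i j * e i x * z j x
  rw [Finset.sum_comm]
  refine Finset.sum_congr rfl fun i _ => Finset.sum_congr rfl fun j _ => ?_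
  rw [(h.mf k).symm x j i]; ring

theorem Ch.psd (h : Ch V t c B B' G AG DG) (k : ℕ) :
    ∀ᵐ x, ∀ v : Fin n → ℝ, 0 ≤ ∑ i, ∑ j, G k x i j * v i * v j := by
  filter_upwards [(h.mf k).low] with x hx v
  refine le_trans ?_ (hx v)
  exact mul_nonneg (h.mf k).d_pos.le (Finset.sum_nonneg fun i _ => sq_nonneg _)

theorem Ch.bpos (h : Ch V t c B B' G AG DG) (k : ℕ) (z : HV V) : 0 ≤ Bf (h.bm k) z z := by
  rw [Bf_int]
  refine integral_nonneg_of_ae ?_
  filter_upwards [(mu_ac V).ae_le (h.psd k)] with x hx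
  exact hx _

theorem Ch.h1 (h : Ch V t c B B' G AG DG) (k : ℕ) (hk : 1 ≤ k) (z : HV V) :
    Bf (h.bm (k - 1)) z z ≤ (1 + 1 / (k : ℝ)) * Bf (h.bm k) z z := by
  rw [Bf_int, Bf_int, ← integral_const_mul]
  refine integral_mono_ae (Bf_integrable (h.bm (k - 1)) z z)
    ((Bf_integrable (h.bm k) z z).const_mul _) ?_
  filter_upwards [(mu_ac V).ae_le (h.mono k hk)] with x hx
  refine (hx (fun i => z i x)).trans (le_of_eq ?_)
  rw [Finset.mul_sum]
  refine Finset.sum_congr rfl fun i _ => ?_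
  rw [Finset.mul_sum]
  refine Finset.sum_congr rfl fun j _ => ?_
  rw [Matrix.smul_apply, smul_eq_mul]; ring

/-- the form of `A G_k` -/
theorem Ch.ag (h : Ch V t c B B' G AG DG) (m : ℕ) (z e : HV V) :
    Bf (h.abm (m + 1)) z e = ((m : ℝ) + 1) * (Bf (h.bm m) z e - Bf (h.bm (m + 1)) z e) := by
  rw [Bf_int, Bf_int, Bf_int, ← integral_sub (Bf_integrable (h.bm m) z e)
    (Bf_integrable (h.bm (m + 1)) z e), ← integral_const_mul]
  refine integral_congr_ae ?_
  filter_upwards [(mu_ac V).ae_le (h.step m)] with x hx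
  have hm : (m : ℝ) + 1 ≠ 0 := by positivity
  have h2 : ∀ i j, AG (m + 1) x i j = ((m : ℝ) + 1) * (G m x i j - G (m + 1) x i j) := by
    intro i j
    have := hx i j
    rw [← this]
    field_simp
    ring
  rw [← Finset.sum_sub_distrib, Finset.mul_sum]
  refine Finset.sum_congr rfl fun i _ => ?_
  rw [← Finset.sum_sub_distrib, Finset.mul_sum]
  refine Finset.sum_congr rfl fun j _ => ?_
  rw [h2]; ring

/-- the identity and the Cauchy-Schwarz inequality -/
theorem Ch.key (hId : StmtIdent) (hB : Base V t c C) (h : Ch V t c B B' G AG DG) (m : ℕ)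
    {z y e w : HV V} {z' y' e' w' : Fin n → E n → ℝ} {Dz De : Fin n → Fin n → E n → ℝ}
    (hz : Rep V t z y z' y' Dz) (he : Rep V t e w e' w' De) :
    KG V t (G (m + 1)) Dz De = 1 / 2 * (Bf (h.bm (m + 1)) z w + Bf (h.bm (m + 1)) y e +
      ((m : ℝ) + 1) * (Bf (h.bm (m + 1)) z e - Bf (h.bm m) z e)) ∧
    (Bf (h.bm (m + 1)) y e - KG V t (G (m + 1)) Dz De) ^ 2 ≤
      6 / ((m : ℝ) + 1 + 2) * KG V t (G (m + 1)) Dz Dz * Bf (h.bm (m + 1)) e e := by
  have hV : Continuous V := hB.V2.continuous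
  obtain ⟨h1, h2⟩ := hId n V t c C hB c (B (m + 1)) (G (m + 1)) (AG (m + 1)) (DG (m + 1)) (h.mf (m + 1))
    (h.dom (m + 1)) (h.agb (m + 1)) z' y' e' w' Dz De hz.dom he.dom
  have h3 := h2 (6 / ((m : ℝ) + 1 + 2)) (by positivity) (by
    have := h.cs (m + 1) (by omega)
    push_cast at this
    exact this)
  rw [Bf_BG hV (h.bm (m + 1)) z w hz.ez he.ey, Bf_BG hV (h.bm (m + 1)) y e hz.ey he.ez,
    Bf_BG hV (h.abm (m + 1)) z e hz.ez he.ez, h.ag m z e] at h1
  rw [Bf_BG hV (h.bm (m + 1)) y e hz.ey he.ez, Bf_BG hV (h.bm (m + 1)) e e he.ez he.ez] at h3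
  refine ⟨?_, h3⟩
  linarith

end

/-- mean zero fields -/
noncomputable def H0 (V : E n → ℝ) (one : Lp ℝ 2 (mu V)) : Submodule ℝ (HV V) where
  carrier := {z | ∀ i, inner ℝ one (z i) = 0}
  add_mem' := by
    intro a b ha hb i
    have : (a + b) i = a i + b i := rfl
    rw [this, inner_add_right, ha i, hb i, add_zero]
  zero_mem' := by
    intro i
    have : (0 : HV V) i = 0 := rfl
    rw [this, inner_zero_right]
  smul_mem' := by
    intro r a ha i
    have : (r • a) i = r • a i := rfl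
    rw [this, real_inner_smul_right, ha i, mul_zero]

theorem H0_closed (V : E n → ℝ) (one : Lp ℝ 2 (mu V)) : IsClosed (H0 V one : Set (HV V)) := by
  have : (H0 V one : Set (HV V)) = ⋂ i, {z : HV V | inner ℝ one (z i) = 0} := by
    ext z
    simp only [Set.mem_iInter, Set.mem_setOf_eq]
    exact Iff.rfl
  rw [this]
  refine isClosed_iInter fun i => ?_
  refine isClosed_eq ?_ continuous_const
  exact continuous_const.inner (PiLp.proj (𝕜 := ℝ) 2 (fun _ : Fin n => Lp ℝ 2 (mu V)) i).continuous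

theorem abs_of {B : ℕ → ℝ} {B' : ℝ} {G AG : ℕ → E n → Matrix (Fin n) (Fin n) ℝ}
    {DG : ℕ → Fin n → E n → Matrix (Fin n) (Fin n) ℝ} (hId : StmtIdent) (hLin : Vale.Agent.P245.K.StmtLin) (hGap : StmtGap)
    (hB : Base V t c C) (hR : Reg V c1 C1) (hI : Iso V) (hB' : 0 ≤ B') (h : Ch V t c B B' G AG DG)
    {one : Lp ℝ 2 (mu V)} (h1 : (one : E n → ℝ) =ᵐ[mu V] fun _ => 1) (hone : Gr V t one 0) :
    Abs (relV hR hB.toTE).J (fun k => Bf (h.bm k)) (H0 V one) := by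
  have hV : Continuous V := hB.V2.continuous
  haveI := finite_mu hR
  set R := relV hR hB.toTE with hRdef
  refine ⟨fun s hs x y => R.J_sym hs x y, ?_, ?_, ?_, fun x => R.J_dense x, ?_, H0_closed V one, ?_,
    fun k x y => h.bsym k x y, fun k x => h.bpos k x, fun k hk x => h.h1 k hk x,
    ⟨B' * n ^ 2, fun k x => Bf_le hB' (h.bm k) x⟩, ?_, ?_, ?_⟩
  · intro s hs z y hz
    exact R.J_eq hs (R.gr1 hz)
  · intro s hs x
    exact R.r2 hs x
  · intro z y hz
    exact R.pos (R.gr1 hz)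
  · intro s hs x hx i
    obtain ⟨v, hv1, hv2⟩ := R.J_spec hs x
    have h2 : inner ℝ one (v i) = 0 := by
      rw [gr_sym hR hB.toTE hone (hv1 i), inner_zero_left]
    have h3 : inner ℝ one (x i) = 0 := hx i
    rw [← hv2] at h3
    have h4 : (R.J s x + s • v) i = (R.J s x) i + s • v i := rfl
    rw [h4, inner_add_right, real_inner_smul_right, h2, mul_zero, add_zero] at h3
    exact h3
  · intro z y hz hz0
    have hg := R.gr1 hz
    rw [PiLp.norm_sq_eq_of_L2, PiLp.inner_apply]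
    refine Finset.sum_le_sum fun i _ => ?_
    obtain ⟨u', v', Du, hD, e1, e2⟩ := gr_dom hB.toTE (hg i)
    have h3 : inner ℝ one (z i) = 0 := hz0 i
    have h4 : K814.I V u' = 0 := by
      rw [← integral_muI hV, ← h3, inner_eq]
      refine integral_congr_ae ?_
      filter_upwards [h1, e1] with x hx1 hx2
      rw [hx1, hx2, one_mul]
    have h5 := hGap n V t c C hB u' v' Du hD h4
    rw [← integral_muI hV, ← integral_muI hV] at h5
    rw [← real_inner_self_eq_norm_sq, inner_eq, inner_eq]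
    have e3 : ∫ x, z i x * z i x ∂(mu V) = ∫ x, u' x ^ 2 ∂(mu V) := by
      refine integral_congr_ae ?_
      filter_upwards [e1] with x hx
      rw [hx]; ring
    have e4 : ∫ x, y i x * z i x ∂(mu V) = ∫ x, u' x * v' x ∂(mu V) := by
      refine integral_congr_ae ?_
      filter_upwards [e1, e2] with x hx hx2
      rw [hx, hx2]; ring
    rw [e3, e4]
    exact h5
  · intro x
    refine Bf_tendsto (fun k => h.bm k) (fun i j => ?_) x
    have h2 := h.lim i j
    unfold Tends at h2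
    rw [ex_t hR hB.toTB hI i j] at h2
    refine h2.congr fun k => ?_
    rw [← integral_muI hV]
  · intro k hk z y hz
    obtain ⟨m, rfl⟩ : ∃ m, k = m + 1 := ⟨k - 1, by omega⟩
    obtain ⟨z', y', Dz, hr⟩ := exists_rep hB.toTE (R.gr1 hz)
    have h2 := (h.key hId hB m hr hr).1
    have h3 := kg_nonneg hB.toTE (h.psd (m + 1)) Dz
    rw [h2, h.bsym (m + 1) y z] at h3
    rw [Nat.add_sub_cancel]
    push_cast
    linarith
  · intro k hk z y e w hz he
    obtain ⟨m, rfl⟩ : ∃ m, k = m + 1 := ⟨k - 1, by omega⟩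
    obtain ⟨z', y', Dz, hr⟩ := exists_rep hB.toTE (R.gr1 hz)
    obtain ⟨e', w', De, hr'⟩ := exists_rep hB.toTE (R.gr1 he)
    have h2 := h.key hId hB m hr hr'
    have h3 := (h.key hId hB m hr hr).1
    rw [h3, h2.1, h.bsym (m + 1) y z] at h2
    rw [Nat.add_sub_cancel]
    push_cast
    have h4 := h2.2
    have e1 : (1 : ℝ) / 2 * (Bf (h.bm (m + 1)) z y + Bf (h.bm (m + 1)) z y +
      ((m : ℝ) + 1) * (Bf (h.bm (m + 1)) z z - Bf (h.bm m) z z)) =
      Bf (h.bm (m + 1)) z y + ((m : ℝ) + 1) / 2 * (Bf (h.bm (m + 1)) z z - Bf (h.bm m) z z) := by ring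
    rw [e1] at h4
    exact h4

/-- **row INST** -/
theorem inst (hAbs : StmtAbs) (hCh : StmtChain) (hId : StmtIdent) (hLin : Vale.Agent.P245.K.StmtLin) (hGap : StmtGap) :
    StmtK := by
  obtain ⟨C₀, hC₀, habs⟩ := hAbs
  refine ⟨2 * C₀, by positivity, ?_⟩
  intro n V t c C hB hI z Az Dz hD hz0
  obtain ⟨c1, C1, hR⟩ := hB.reg
  have hV : Continuous V := hB.V2.continuous
  haveI := finite_mu hR
  obtain ⟨B, G, AG, DG, k1, k2, k3, k4, k5, k6, k7, k8, ⟨B₁, k9⟩, k10⟩ := hCh n V t c C hB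
  have h : Ch V t c B (max B₁ 0) G AG DG := ⟨k1, k2, k3, k4, k5, k7, k8, fun k => by
    filter_upwards [k9 k] with x hx i j
    exact (hx i j).trans (le_max_left _ _), k10⟩
  -- the constant function
  have m1 : MemLp (fun _ : E n => (1 : ℝ)) 2 (mu V) := memLp_const 1
  have m0 : MemLp (fun _ : E n => (0 : ℝ)) 2 (mu V) := memLp_const 0
  have hone : Gr V t (m1.toLp _) 0 := by
    obtain ⟨f, hf⟩ := (hLin n V t c C hB).2.2.2.2.2
    have h2 := gr_of hB.toTE hf m1 m0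
    have h3 : m0.toLp (fun _ : E n => (0 : ℝ)) = 0 := by
      apply Lp.ext
      filter_upwards [m0.coeFn_toLp, Lp.coeFn_zero ℝ 2 (mu V)] with x h4 h5
      rw [h4, h5]; rfl
    rwa [h3] at h2
  have hA := abs_of hId hLin hGap hB hR hI (le_max_right _ _) h m1.coeFn_toLp hone
  -- the fields
  have mz : ∀ i, MemLp (z i) 2 (mu V) := fun i => by
    obtain ⟨f, hf⟩ := hD i
    exact (memLp_iff hV hf.mu.aestronglyMeasurable).2 hf.iu
  have mA : ∀ i, MemLp (Az i) 2 (mu V) := fun i => by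
    obtain ⟨f, hf⟩ := hD i
    exact (memLp_iff hV hf.mA.aestronglyMeasurable).2 hf.iA
  have mD : ∀ i a, MemLp (Dz i a) 2 (mu V) := fun i a => by
    obtain ⟨f, hf⟩ := hD i
    exact (memLp_iff hV (hf.mD a).aestronglyMeasurable).2 (hf.iD a)
  set Z : HV V := WithLp.toLp 2 (fun i => (mz i).toLp (z i)) with hZ
  set Y : HV V := WithLp.toLp 2 (fun i => (mA i).toLp (Az i)) with hY
  have hG : GrV V t Z Y := fun i => by
    obtain ⟨f, hf⟩ := hD i
    exact gr_of hB.toTE hf (mz i) (mA i)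
  have hr : Rep V t Z Y z Az Dz := ⟨hD, fun i => (mz i).coeFn_toLp, fun i => (mA i).coeFn_toLp⟩
  have hZ0 : Z ∈ H0 V (m1.toLp _) := by
    intro i
    rw [inner_eq, ← hz0 i, ← integral_muI hV]
    refine integral_congr_ae ?_
    filter_upwards [m1.coeFn_toLp, (mz i).coeFn_toLp] with x h2 h3
    show (m1.toLp _ : E n → ℝ) x * ((mz i).toLp (z i) : E n → ℝ) x = z i x
    rw [h2, h3, one_mul]
  have h5 := habs (HV V) _ _ _ hA Z Y ((relV hR hB.toTE).gr1' hG) hZ0
  have h6 := (h.key hId hB 0 hr hr).1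
  rw [h.bsym (0 + 1) Y Z] at h6
  have h7 : KG V t (G 1) Dz Dz = Bf (h.bm 1) Z Y + 1 / 2 * (Bf (h.bm 1) Z Z - Bf (h.bm 0) Z Z) := by
    have := h6
    simp only [Nat.cast_zero, zero_add] at this
    rw [this]; ring
  have h8 : ‖Y‖ ^ 2 = ∑ i, K814.I V (fun x => Az i x ^ 2) := by
    rw [PiLp.norm_sq_eq_of_L2]
    refine Finset.sum_congr rfl fun i _ => ?_
    rw [← real_inner_self_eq_norm_sq, inner_eq, ← integral_muI hV]
    refine integral_congr_ae ?_
    filter_upwards [(mA i).coeFn_toLp] with x h2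
    show ((mA i).toLp (Az i) : E n → ℝ) x * ((mA i).toLp (Az i) : E n → ℝ) x = Az i x ^ 2
    rw [h2]; ring
  have h9 : KG V t t Dz Dz ≤ 2 * KG V t (G 1) Dz Dz := by
    have hm := h.mono 1 le_rfl
    have e : (1 + 1 / ((1 : ℕ) : ℝ)) = 2 := by norm_num
    rw [e] at hm
    have h10 := kg_le hB.toTE (h.bm 0) (h.bm 1) hm mD
    rwa [h.g0] at h10
  rw [← h8]
  calc KG V t t Dz Dz ≤ 2 * KG V t (G 1) Dz Dz := h9
    _ ≤ 2 * (C₀ * ‖Y‖ ^ 2) := by
        rw [h7]
        exact mul_le_mul_of_nonneg_left h5 (by norm_num)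
    _ = 2 * C₀ * ‖Y‖ ^ 2 := by ring

end Vale.Agent.P245.K3
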