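import Vale.Agent.P245.K2.Kato
import Vale.Agent.P245.K2.R1E
import Vale.Agent.P245.K.Comm
import Vale.Agent.P245.K2.StepInst
import Vale.Agent.P245.K3.Chain
import Vale.Agent.P245.K3.Gap717
import Vale.Agent.P245.K.Ident
import Vale.Agent.P245.K.Abs
import Vale.Agent.P245.K2.HP
import Vale.Agent.P245.K.Final
import Vale.Agent.P245.H464.Base0
import Vale.Agent.P245.H464.Ops
import Vale.Agent.P245.K.W
import Vale.Agent.P245.K3.Inst

/-! P245: assembly of the KLS block (independent check, helper110). -/

namespace Vale.Agent.P245.K3.All110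

open Vale.Agent.P245

theorem st_comm : K.StmtComm := K.Comm.comm K.stmtW
theorem st_kato : K.StmtKato := K2.Kato.kato
theorem st_step0 : K.StmtStep0 := K2.StepInst.step0 st_kato K2.R1E.r1e st_comm
theorem st_step : K.StmtStep := K2.StepInst.step st_kato K2.R1E.r1e st_comm
theorem st_base0 : K.StmtBase0 := H464.base0 st_step0
theorem st_gap : K.StmtGap := K3.Gap717.gap
theorem st_chain : K.StmtChain := K3.Chain.chain st_step st_base0 st_gap
theorem st_ident : K.StmtIdent := K.Ident.ident H464.stmtForm
theorem st_k : K.StmtK := K3.inst K.stmtAbs st_chain st_ident H464.stmtLin st_gap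
theorem st_preg : K.StmtPreg := K2.HP.preg_of st_k st_gap

end Vale.Agent.P245.K3.All110
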