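import Mathlib

/-!
P245, KLS block, row INST (independent copy, helper110), part A: resolvents of a positive symmetric
total linear relation in a Hilbert space.
-/

set_option linter.all false

open Filter Topology

namespace Vale.Agent.P245.K3

variable {H : Type} [NormedAddCommGroup H] [InnerProductSpace ℝ H]

/-- positive symmetric linear relation with total resolvents -/
structure Rel (G : H → H → Prop) : Prop where
  add : ∀ {u v u' v'}, G u v → G u' v' → G (u + u') (v + v')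
  smul : ∀ (c : ℝ) {u v}, G u v → G (c • u) (c • v)
  sym : ∀ {u v u' v'}, G u v → G u' v' → inner ℝ u v' = inner ℝ v u'
  pos : ∀ {u v}, G u v → 0 ≤ inner ℝ v u
  tot : ∀ s : ℝ, 0 < s → ∀ g, ∃ u v, G u v ∧ u + s • v = g
  inj0 : ∀ {w}, G 0 w → w = 0

namespace Rel

variable {G : H → H → Prop} (hG : Rel G)
include hG

theorem sub {u v u' v' : H} (h : G u v) (h' : G u' v') : G (u - u') (v - v') := by
  have := hG.add h (hG.smul (-1) h')
  simpa [sub_eq_add_neg] using this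

theorem norm_le {s : ℝ} (hs : 0 < s) {u v : H} (h : G u v) : ‖u‖ ≤ ‖u + s • v‖ := by
  have h1 : ‖u + s • v‖ ^ 2 = ‖u‖ ^ 2 + 2 * inner ℝ u (s • v) + ‖s • v‖ ^ 2 :=
    norm_add_sq_real _ _
  have h2 : 0 ≤ inner ℝ u (s • v) := by
    rw [real_inner_smul_right, real_inner_comm]
    exact mul_nonneg hs.le (hG.pos h)
  have h3 : ‖u‖ ^ 2 ≤ ‖u + s • v‖ ^ 2 := by
    rw [h1]; nlinarith [sq_nonneg ‖s • v‖]
  exact (pow_le_pow_iff_left₀ (norm_nonneg _) (norm_nonneg _) two_ne_zero).1 h3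

theorem uniq {s : ℝ} (hs : 0 < s) {u v u' v' : H} (h : G u v) (h' : G u' v')
    (e : u + s • v = u' + s • v') : u = u' := by
  have h1 := hG.norm_le hs (hG.sub h h')
  have h2 : (u - u') + s • (v - v') = 0 := by
    rw [smul_sub]
    have : (u - u') + (s • v - s • v') = (u + s • v) - (u' + s • v') := by abel
    rw [this, e, sub_self]
  rw [h2, norm_zero] at h1
  exact sub_eq_zero.1 (norm_le_zero_iff.1 h1)

/-- the resolvent as a linear map -/
noncomputable def Jl (s : ℝ) (hs : 0 < s) : H →ₗ[ℝ] H where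
  toFun g := (hG.tot s hs g).choose
  map_add' g g' := by
    obtain ⟨v, h1, h2⟩ := (hG.tot s hs g).choose_spec
    obtain ⟨v', h1', h2'⟩ := (hG.tot s hs g').choose_spec
    obtain ⟨v'', h1'', h2''⟩ := (hG.tot s hs (g + g')).choose_spec
    refine hG.uniq hs h1'' (hG.add h1 h1') ?_
    rw [h2'', smul_add]
    have : ∀ a b c d : H, (a + b) + (c + d) = (a + c) + (b + d) := fun a b c d => by abel
    rw [this, h2, h2']
  map_smul' c g := by
    obtain ⟨v, h1, h2⟩ := (hG.tot s hs g).choose_spec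
    obtain ⟨v'', h1'', h2''⟩ := (hG.tot s hs (c • g)).choose_spec
    refine hG.uniq hs h1'' (hG.smul c h1) ?_
    rw [h2'', smul_comm s c]
    simp only [RingHom.id_apply]
    rw [← smul_add, h2]

theorem Jl_spec (s : ℝ) (hs : 0 < s) (g : H) : ∃ v, G (hG.Jl s hs g) v ∧ hG.Jl s hs g + s • v = g :=
  (hG.tot s hs g).choose_spec

/-- the resolvent as a continuous linear map -/
noncomputable def J (s : ℝ) : H →L[ℝ] H :=
  if hs : 0 < s then (hG.Jl s hs).mkContinuous 1 (fun g => by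
    obtain ⟨v, h1, h2⟩ := hG.Jl_spec s hs g
    rw [one_mul]
    calc ‖hG.Jl s hs g‖ ≤ ‖hG.Jl s hs g + s • v‖ := hG.norm_le hs h1
      _ = ‖g‖ := by rw [h2]) else 0

theorem J_spec {s : ℝ} (hs : 0 < s) (g : H) : ∃ v, G (hG.J s g) v ∧ hG.J s g + s • v = g := by
  unfold J
  rw [dif_pos hs]
  exact hG.Jl_spec s hs g

theorem J_eq {s : ℝ} (hs : 0 < s) {u v : H} (h : G u v) : hG.J s (u + s • v) = u := by
  obtain ⟨v', h1, h2⟩ := hG.J_spec hs (u + s • v)
  exact hG.uniq hs h1 h h2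

theorem J_le {s : ℝ} (hs : 0 < s) (g : H) : ‖hG.J s g‖ ≤ ‖g‖ := by
  obtain ⟨v', h1, h2⟩ := hG.J_spec hs g
  calc ‖hG.J s g‖ ≤ ‖hG.J s g + s • v'‖ := hG.norm_le hs h1
    _ = ‖g‖ := by rw [h2]

theorem gr {s : ℝ} (hs : 0 < s) {z y : H} (h : hG.J s (z + s • y) = z) : G z y := by
  obtain ⟨v', h1, h2⟩ := hG.J_spec hs (z + s • y)
  rw [h] at h1 h2
  have h3 : s • v' = s • y := add_left_cancel h2
  have h4 : v' = y := by
    have := congrArg (fun w => s⁻¹ • w) h3
    simpa [smul_smul, inv_mul_cancel₀ hs.ne'] using this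
  rwa [h4] at h1

theorem gr1 {z y : H} (h : hG.J 1 (z + y) = z) : G z y := by
  have h' : hG.J 1 (z + (1 : ℝ) • y) = z := by rwa [one_smul]
  exact hG.gr one_pos h'

theorem gr1' {z y : H} (h : G z y) : hG.J 1 (z + y) = z := by
  have := hG.J_eq one_pos h
  rwa [one_smul] at this

theorem J_sym {s : ℝ} (hs : 0 < s) (x y : H) : inner ℝ (hG.J s x) y = inner ℝ x (hG.J s y) := by
  obtain ⟨v, h1, h2⟩ := hG.J_spec hs x
  obtain ⟨w, h3, h4⟩ := hG.J_spec hs y
  have h5 := hG.sym h1 h3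
  calc inner ℝ (hG.J s x) y = inner ℝ (hG.J s x) (hG.J s y + s • w) := by rw [h4]
    _ = inner ℝ (hG.J s x) (hG.J s y) + s * inner ℝ v (hG.J s y) := by
        rw [inner_add_right, real_inner_smul_right, h5]
    _ = inner ℝ (hG.J s x + s • v) (hG.J s y) := by rw [inner_add_left, real_inner_smul_left]
    _ = inner ℝ x (hG.J s y) := by rw [h2]

theorem r2 {s : ℝ} (hs : 0 < s) (x : H) :
    hG.J 1 (hG.J s x + s⁻¹ • (x - hG.J s x)) = hG.J s x := by
  obtain ⟨v, h1, h2⟩ := hG.J_spec hs x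
  have h3 : s⁻¹ • (x - hG.J s x) = v := by
    have : x - hG.J s x = s • v := by
      nth_rewrite 1 [← h2]; abel
    rw [this, smul_smul, inv_mul_cancel₀ hs.ne', one_smul]
  rw [h3]
  exact hG.gr1' h1

theorem dom_dense [CompleteSpace H] : Dense {z : H | ∃ y, G z y} := by
  let S : Submodule ℝ H :=
    { carrier := {z : H | ∃ y, G z y}
      add_mem' := by
        rintro a b ⟨y, h⟩ ⟨y', h'⟩
        exact ⟨_, hG.add h h'⟩
      zero_mem' := by
        obtain ⟨u, v, h, _⟩ := hG.tot 1 one_pos 0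
        exact ⟨0, by simpa using hG.smul 0 h⟩
      smul_mem' := by
        rintro c a ⟨y, h⟩
        exact ⟨_, hG.smul c h⟩ }
  have h1 : S.topologicalClosure = ⊤ := by
    rw [Submodule.topologicalClosure_eq_top_iff, Submodule.eq_bot_iff]
    intro w hw
    rw [Submodule.mem_orthogonal'] at hw
    obtain ⟨u, v, h, e⟩ := hG.tot 1 one_pos w
    have h2 : inner ℝ w u = 0 := hw u ⟨v, h⟩
    rw [one_smul] at e
    rw [← e, inner_add_left] at h2
    have h3 := hG.pos h
    have h4 : inner ℝ u u = ‖u‖ ^ 2 := real_inner_self_eq_norm_sq u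
    have h5 : ‖u‖ ^ 2 ≤ 0 := by rw [← h4]; linarith
    have h6 : u = 0 := by
      have : ‖u‖ ^ 2 = 0 := le_antisymm h5 (by positivity)
      exact norm_eq_zero.1 (pow_eq_zero_iff two_ne_zero |>.1 this)
    subst h6
    rw [zero_add] at e
    subst e
    exact hG.inj0 h
  exact Submodule.dense_iff_topologicalClosure_eq_top.2 h1

theorem J_dense [CompleteSpace H] (x : H) :
    Tendsto (fun m : ℕ => hG.J (1 / ((m : ℝ) + 1)) x) atTop (𝓝 x) := by
  have hp : ∀ m : ℕ, (0 : ℝ) < 1 / ((m : ℝ) + 1) := fun m => by positivity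
  rw [Metric.tendsto_atTop]
  intro ε hε
  obtain ⟨z, hz1, y, hz⟩ := Metric.dense_iff.1 hG.dom_dense x (ε / 3) (by positivity)
  have hxz : ‖x - z‖ < ε / 3 := by
    have := Metric.mem_ball.1 hz1
    rwa [dist_comm, dist_eq_norm] at this
  have ht : Tendsto (fun m : ℕ => 1 / ((m : ℝ) + 1) * ‖y‖) atTop (𝓝 (0 * ‖y‖)) :=
    tendsto_one_div_add_atTop_nhds_zero_nat.mul_const _
  rw [zero_mul] at ht
  obtain ⟨N, hN⟩ := (Metric.tendsto_atTop.1 ht) (ε / 3) (by positivity)
  refine ⟨N, fun m hm => ?_⟩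
  have h1 := hN m hm
  rw [Real.dist_eq, sub_zero, abs_of_nonneg (mul_nonneg (hp m).le (norm_nonneg _))] at h1
  set s : ℝ := 1 / ((m : ℝ) + 1) with hs
  have h2 : hG.J s z - z = - (s • hG.J s y) := by
    have h3 := hG.J_eq (hp m) hz
    rw [map_add, map_smul] at h3
    have h4 : hG.J s z + s • hG.J s y = z := h3
    rw [eq_sub_of_add_eq h4]
    abel
  have h3 : ‖hG.J s z - z‖ ≤ s * ‖y‖ := by
    rw [h2, norm_neg, norm_smul, Real.norm_eq_abs, abs_of_pos (hp m)]
    exact mul_le_mul_of_nonneg_left (hG.J_le (hp m) y) (hp m).le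
  have h4 : ‖hG.J s (x - z)‖ ≤ ‖x - z‖ := hG.J_le (hp m) _
  rw [dist_eq_norm]
  have e : hG.J s x - x = hG.J s (x - z) + (hG.J s z - z) - (x - z) := by
    rw [map_sub]; abel
  rw [e]
  calc ‖hG.J s (x - z) + (hG.J s z - z) - (x - z)‖
      ≤ ‖hG.J s (x - z) + (hG.J s z - z)‖ + ‖x - z‖ := norm_sub_le _ _
    _ ≤ ‖hG.J s (x - z)‖ + ‖hG.J s z - z‖ + ‖x - z‖ := by
        have := norm_add_le (hG.J s (x - z)) (hG.J s z - z)
        linarith
    _ < ε := by linarith

end Rel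

end Vale.Agent.P245.K3
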