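import Vale.Agent.P245.K.Iface
import Vale.Agent.P245.K.OP3
import Vale.Agent.P245.K3.InstA

/-!
P245, KLS block, row INST (independent copy, helper110), part B: the relation of `A` on
`L²(e^{-V})` and on vector fields.
-/

set_option linter.all false

open MeasureTheory Filter Topology
open scoped NNReal ENNReal ContDiff
open Vale.Agent.P227.M Vale.Agent.P227.M.K814 Vale.Agent.P254 Vale.Agent.P254.SN

namespace Vale.Agent.P245.K3

open Vale.Agent.P245.H464 (TE Lt mu mu_ac ac_mu integral_mu memLp_iff exists_meas total)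
open Vale.Agent.P245.K.OP3 (DomE L2to inner_toLp1 finite_mu memLp_test)

variable {n : ℕ} {V : E n → ℝ} {t : E n → Matrix (Fin n) (Fin n) ℝ} {c C c1 C1 : ℝ}

theorem inner_eq (f g : Lp ℝ 2 (mu V)) : inner ℝ f g = ∫ x, f x * g x ∂(mu V) := by
  have h := inner_toLp1 (Lp.memLp f) (Lp.memLp g)
  rwa [Lp.toLp_coeFn, Lp.toLp_coeFn] at h

/-- the graph of `A` on `L²` -/
def Gr (V : E n → ℝ) (t : E n → Matrix (Fin n) (Fin n) ℝ) (u v : Lp ℝ 2 (mu V)) : Prop :=
  ∃ Du, DomE V t u Du v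

theorem gr_add {u v u' v' : Lp ℝ 2 (mu V)} (h : Gr V t u v) (h' : Gr V t u' v') :
    Gr V t (u + u') (v + v') := by
  obtain ⟨D, h⟩ := h
  obtain ⟨D', h'⟩ := h'
  refine ⟨_, (h.add h').congr ?_ (fun a => Filter.EventuallyEq.rfl) ?_⟩
  · filter_upwards [Lp.coeFn_add u u'] with x hx
    rw [hx]; rfl
  · filter_upwards [Lp.coeFn_add v v'] with x hx
    rw [hx]; rfl

theorem gr_smul (r : ℝ) {u v : Lp ℝ 2 (mu V)} (h : Gr V t u v) : Gr V t (r • u) (r • v) := by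
  obtain ⟨D, h⟩ := h
  refine ⟨_, (h.smul r).congr ?_ (fun a => Filter.EventuallyEq.rfl) ?_⟩
  · filter_upwards [Lp.coeFn_smul r u] with x hx
    rw [hx]; rfl
  · filter_upwards [Lp.coeFn_smul r v] with x hx
    rw [hx]; rfl

theorem gr_sym (hR : Reg V c1 C1) (hT : TE V t c C) {u v u' v' : Lp ℝ 2 (mu V)} (h : Gr V t u v)
    (h' : Gr V t u' v') : inner ℝ u v' = inner ℝ v u' := by
  obtain ⟨D, h⟩ := h
  obtain ⟨D', h'⟩ := h'
  rw [inner_eq, inner_eq]
  have := h.symm hR hT.toTB h'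
  rw [← this]
  refine integral_congr_ae (Eventually.of_forall fun x => ?_)
  exact mul_comm _ _

theorem gr_pos (hR : Reg V c1 C1) (hT : TE V t c C) {u v : Lp ℝ 2 (mu V)} (h : Gr V t u v) :
    0 ≤ inner ℝ v u := by
  obtain ⟨D, h⟩ := h
  rw [inner_eq]
  have := h.pos hR hT
  refine le_of_le_of_eq this (integral_congr_ae (Eventually.of_forall fun x => ?_))
  exact mul_comm _ _

/-- from `Dom` to the graph -/
theorem gr_of {f : ℕ → E n → ℝ} {u Au : E n → ℝ} {Du : Fin n → E n → ℝ} (hT : TE V t c C)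
    (h : Vale.Agent.P245.H464.Dom V t f u Du Au) (hu : MemLp u 2 (mu V)) (hA : MemLp Au 2 (mu V)) :
    Gr V t (hu.toLp u) (hA.toLp Au) := by
  refine ⟨Du, (DomE.of hT.toTB h).congr ?_ (fun a => Filter.EventuallyEq.rfl) ?_⟩
  · exact hu.coeFn_toLp.symm
  · exact hA.coeFn_toLp.symm

theorem gr_tot (hT : TE V t c C) {s : ℝ} (hs : 0 < s) (g : Lp ℝ 2 (mu V)) :
    ∃ u v, Gr V t u v ∧ u + s • v = g := by
  have hV : Continuous V := hT.V2.continuous
  obtain ⟨g', hgm, hge, hgi⟩ := exists_meas hV g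
  obtain ⟨f, u, Du, Au, hD, he⟩ := total hT hgm hgi hs
  have hu : MemLp u 2 (mu V) := (memLp_iff hV hD.mu.aestronglyMeasurable).2 hD.iu
  have hA : MemLp Au 2 (mu V) := (memLp_iff hV hD.mA.aestronglyMeasurable).2 hD.iA
  refine ⟨hu.toLp u, hA.toLp Au, gr_of hT hD hu hA, ?_⟩
  apply Lp.ext
  filter_upwards [Lp.coeFn_add (hu.toLp u) (s • hA.toLp Au), Lp.coeFn_smul s (hA.toLp Au),
    hu.coeFn_toLp, hA.coeFn_toLp, (mu_ac V).ae_le hge] with x h1 h2 h3 h4 h5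
  rw [h1, Pi.add_apply, h2, Pi.smul_apply, h3, h4, h5, smul_eq_mul]
  exact he x

theorem lp_eq_zero (hR : Reg V c1 C1) {w : Lp ℝ 2 (mu V)}
    (h : ∀ φ : E n → ℝ, Test φ → ∫ x, φ x * w x ∂(mu V) = 0) : w = 0 := by
  haveI := finite_mu hR
  have hw : LocallyIntegrable (w : E n → ℝ) (mu V) :=
    ((Lp.memLp w).integrable (by norm_num)).locallyIntegrable
  have := ae_eq_zero_of_integral_contDiff_smul_eq_zero hw (fun g hg hgc => by
    have := h g ⟨hg, hgc⟩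
    simpa [smul_eq_mul] using this)
  apply Lp.ext
  filter_upwards [this, Lp.coeFn_zero ℝ 2 (mu V)] with x hx h0
  rw [hx, h0]; rfl

theorem gr_inj0 (hR : Reg V c1 C1) (hT : TE V t c C) {w : Lp ℝ 2 (mu V)} (h : Gr V t 0 w) :
    w = 0 := by
  obtain ⟨D, h⟩ := h
  refine lp_eq_zero hR fun φ hφ => ?_
  rw [h.symm hR hT.toTB (DomE.test hR hT.toTB hφ)]
  have : ∀ᵐ x ∂(mu V), ((0 : Lp ℝ 2 (mu V)) : E n → ℝ) x * (-Lt t φ x) = 0 := by
    filter_upwards [Lp.coeFn_zero ℝ 2 (mu V)] with x h0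
    rw [h0]; simp
  rw [integral_congr_ae this]
  simp

/-- vector fields -/
abbrev HV (V : E n → ℝ) : Type := PiLp 2 (fun _ : Fin n => Lp ℝ 2 (mu V))

/-- the graph on vector fields -/
def GrV (V : E n → ℝ) (t : E n → Matrix (Fin n) (Fin n) ℝ) (z y : HV V) : Prop :=
  ∀ i, Gr V t (z i) (y i)

theorem relV (hR : Reg V c1 C1) (hT : TE V t c C) : Rel (GrV V t) where
  add := fun {u v u' v'} h h' i => gr_add (h i) (h' i)
  smul := fun r {u v} h i => gr_smul r (h i)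
  sym := fun {u v u' v'} h h' => by
    rw [PiLp.inner_apply, PiLp.inner_apply]
    exact Finset.sum_congr rfl fun i _ => gr_sym hR hT (h i) (h' i)
  pos := fun {u v} h => by
    rw [PiLp.inner_apply]
    exact Finset.sum_nonneg fun i _ => gr_pos hR hT (h i)
  tot := fun s hs g => by
    have h1 : ∀ i, ∃ p : Lp ℝ 2 (mu V) × Lp ℝ 2 (mu V), Gr V t p.1 p.2 ∧ p.1 + s • p.2 = g i := by
      intro i
      obtain ⟨u, v, h1, h2⟩ := gr_tot hT hs (g i)
      exact ⟨(u, v), h1, h2⟩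
    choose p hp1 hp2 using h1
    refine ⟨WithLp.toLp 2 (fun i => (p i).1), WithLp.toLp 2 (fun i => (p i).2), fun i => hp1 i, ?_⟩
    ext1 i
    exact hp2 i
  inj0 := fun {w} h => by
    ext1 i
    exact gr_inj0 hR hT (h i)

/-! ## representatives -/

theorem gr_dom (hT : TE V t c C) {u v : Lp ℝ 2 (mu V)} (h : Gr V t u v) :
    ∃ (u' v' : E n → ℝ) (Du : Fin n → E n → ℝ), K.Dom V t u' Du v' ∧
      (u : E n → ℝ) =ᵐ[mu V] u' ∧ (v : E n → ℝ) =ᵐ[mu V] v' := by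
  obtain ⟨D, h⟩ := h
  have hV : Continuous V := hT.V2.continuous
  obtain ⟨u', hu1, hu2, _⟩ := exists_meas hV u
  obtain ⟨v', hv1, hv2, _⟩ := exists_meas hV v
  have hD := fun a => (h.memD a).1
  refine ⟨u', v', fun a => (hD a).mk _, ?_, (mu_ac V).ae_le hu2, (mu_ac V).ae_le hv2⟩
  have h2 := h.congr ((mu_ac V).ae_le hu2) (fun a => (hD a).ae_eq_mk) ((mu_ac V).ae_le hv2)
  exact h2.dom hT.toTB hu1 (fun a => (hD a).stronglyMeasurable_mk.measurable) hv1

end Vale.Agent.P245.K3
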