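import Vale.Agent.P245.K3.InstB

/-!
P245, KLS block, row INST (independent copy, helper110), part C: bounded matrix functions as
bilinear forms on vector fields.
-/

set_option linter.all false

open MeasureTheory Filter Topology
open scoped NNReal ENNReal ContDiff
open Vale.Agent.P227.M Vale.Agent.P227.M.K814 Vale.Agent.P254 Vale.Agent.P254.SN

namespace Vale.Agent.P245.K3

open Vale.Agent.P245.H464 (TE Lt mu mu_ac ac_mu integral_mu memLp_iff exists_meas total)
open Vale.Agent.P245.K.OP3 (DomE L2to inner_toLp1 finite_mu memLp_test)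

variable {n : ℕ} {V : E n → ℝ} {t : E n → Matrix (Fin n) (Fin n) ℝ} {c C c1 C1 : ℝ}

/-- bounded measurable function -/
structure BF (V : E n → ℝ) (b : E n → ℝ) (B : ℝ) : Prop where
  meas : Measurable b
  bd : ∀ᵐ x ∂(mu V), |b x| ≤ B

theorem BF.memLp {b : E n → ℝ} {B : ℝ} (h : BF V b B) {u : E n → ℝ} (hu : MemLp u 2 (mu V)) :
    MemLp (fun x => b x * u x) 2 (mu V) := by
  refine MemLp.of_le_mul (c := B) hu (h.meas.aestronglyMeasurable.mul hu.1) ?_
  filter_upwards [h.bd] with x hx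
  rw [norm_mul]
  exact mul_le_mul_of_nonneg_right hx (norm_nonneg _)

theorem BF.int {b : E n → ℝ} {B : ℝ} (h : BF V b B) {u w : E n → ℝ} (hu : MemLp u 2 (mu V))
    (hw : MemLp w 2 (mu V)) : Integrable (fun x => b x * u x * w x) (mu V) :=
  (h.memLp hu).integrable_mul hw

/-- the scalar form `∫ b u w` -/
noncomputable def bl {b : E n → ℝ} {B : ℝ} (h : BF V b B) :
    Lp ℝ 2 (mu V) →L[ℝ] Lp ℝ 2 (mu V) →L[ℝ] ℝ :=
  LinearMap.mkContinuous₂ (LinearMap.mk₂ ℝ (fun u w : Lp ℝ 2 (mu V) => ∫ x, b x * u x * w x ∂(mu V))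
    (fun u u' w => by
      rw [← integral_add (h.int (Lp.memLp u) (Lp.memLp w)) (h.int (Lp.memLp u') (Lp.memLp w))]
      refine integral_congr_ae ?_
      filter_upwards [Lp.coeFn_add u u'] with x hx
      rw [hx, Pi.add_apply]; ring)
    (fun r u w => by
      rw [smul_eq_mul, ← integral_const_mul]
      refine integral_congr_ae ?_
      filter_upwards [Lp.coeFn_smul r u] with x hx
      rw [hx, Pi.smul_apply, smul_eq_mul]; ring)
    (fun u w w' => by
      rw [← integral_add (h.int (Lp.memLp u) (Lp.memLp w)) (h.int (Lp.memLp u) (Lp.memLp w'))]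
      refine integral_congr_ae ?_
      filter_upwards [Lp.coeFn_add w w'] with x hx
      rw [hx, Pi.add_apply]; ring)
    (fun r u w => by
      rw [smul_eq_mul, ← integral_const_mul]
      refine integral_congr_ae ?_
      filter_upwards [Lp.coeFn_smul r w] with x hx
      rw [hx, Pi.smul_apply, smul_eq_mul]; ring))
    |B| (fun u w => by
      rw [LinearMap.mk₂_apply]
      have h1 : ∫ x, b x * u x * w x ∂(mu V) = inner ℝ ((h.memLp (Lp.memLp u)).toLp _) w := by
        rw [inner_eq]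
        refine integral_congr_ae ?_
        filter_upwards [(h.memLp (Lp.memLp u)).coeFn_toLp] with x hx
        rw [hx]
      rw [h1]
      refine (norm_inner_le_norm _ _).trans (mul_le_mul_of_nonneg_right ?_ (norm_nonneg _))
      refine Lp.norm_le_mul_norm_of_ae_le_mul ?_
      filter_upwards [(h.memLp (Lp.memLp u)).coeFn_toLp, h.bd] with x hx hb
      rw [hx, norm_mul]
      exact mul_le_mul_of_nonneg_right (hb.trans (le_abs_self _)) (norm_nonneg _))

theorem bl_apply {b : E n → ℝ} {B : ℝ} (h : BF V b B) (u w : Lp ℝ 2 (mu V)) :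
    bl h u w = ∫ x, b x * u x * w x ∂(mu V) := rfl

theorem bl_norm {b : E n → ℝ} {B : ℝ} (h : BF V b B) (hB : 0 ≤ B) (u w : Lp ℝ 2 (mu V)) :
    |bl h u w| ≤ B * ‖u‖ * ‖w‖ := by
  have h1 : ‖bl h‖ ≤ |B| := LinearMap.mkContinuous₂_norm_le _ (abs_nonneg _) _
  rw [abs_of_nonneg hB] at h1
  have h2 : ‖bl h u w‖ ≤ ‖bl h‖ * ‖u‖ * ‖w‖ := (bl h).le_opNorm₂ u w
  rw [Real.norm_eq_abs] at h2
  refine h2.trans ?_
  gcongr

/-- bounded matrix function -/
def BM (V : E n → ℝ) (G : E n → Matrix (Fin n) (Fin n) ℝ) (B : ℝ) : Prop :=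
  ∀ i j, BF V (fun x => G x i j) B

/-- the form `∫ ⟨G z, e⟩` on vector fields -/
noncomputable def Bf {G : E n → Matrix (Fin n) (Fin n) ℝ} {B : ℝ} (h : BM V G B) :
    HV V →L[ℝ] HV V →L[ℝ] ℝ :=
  ∑ i, ∑ j, (bl (h i j)).bilinearComp (PiLp.proj 2 (fun _ : Fin n => Lp ℝ 2 (mu V)) i)
    (PiLp.proj 2 (fun _ : Fin n => Lp ℝ 2 (mu V)) j)

theorem Bf_apply {G : E n → Matrix (Fin n) (Fin n) ℝ} {B : ℝ} (h : BM V G B) (z e : HV V) :
    Bf h z e = ∑ i, ∑ j, ∫ x, G x i j * z i x * e j x ∂(mu V) := by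
  unfold Bf
  simp only [ContinuousLinearMap.sum_apply, ContinuousLinearMap.bilinearComp_apply, PiLp.proj_apply,
    bl_apply]

theorem Bf_int {G : E n → Matrix (Fin n) (Fin n) ℝ} {B : ℝ} (h : BM V G B) (z e : HV V) :
    Bf h z e = ∫ x, ∑ i, ∑ j, G x i j * z i x * e j x ∂(mu V) := by
  rw [Bf_apply]
  have hi : ∀ i j, Integrable (fun x => G x i j * z i x * e j x) (mu V) := fun i j =>
    (h i j).int (Lp.memLp _) (Lp.memLp _)
  rw [integral_finsetSum _ fun i _ => integrable_finsetSum _ fun j _ => hi i j]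
  refine Finset.sum_congr rfl fun i _ => ?_
  rw [integral_finsetSum _ fun j _ => hi i j]

theorem Bf_integrable {G : E n → Matrix (Fin n) (Fin n) ℝ} {B : ℝ} (h : BM V G B) (z e : HV V) :
    Integrable (fun x => ∑ i, ∑ j, G x i j * z i x * e j x) (mu V) :=
  integrable_finsetSum _ fun i _ => integrable_finsetSum _ fun j _ =>
    (h i j).int (Lp.memLp _) (Lp.memLp _)

theorem Bf_le {G : E n → Matrix (Fin n) (Fin n) ℝ} {B : ℝ} (hB : 0 ≤ B) (h : BM V G B) (z : HV V) :
    Bf h z z ≤ (B * n ^ 2) * ‖z‖ ^ 2 := by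
  have h1 : Bf h z z = ∑ i, ∑ j, bl (h i j) (z i) (z j) := by
    rw [Bf_apply]
    simp only [bl_apply]
  rw [h1]
  have h2 : ∀ i j, bl (h i j) (z i) (z j) ≤ B * ‖z‖ ^ 2 := by
    intro i j
    refine (le_abs_self _).trans ((bl_norm (h i j) hB _ _).trans ?_)
    have h3 : ‖z i‖ ≤ ‖z‖ := PiLp.norm_apply_le z i
    have h4 : ‖z j‖ ≤ ‖z‖ := PiLp.norm_apply_le z j
    have h5 := norm_nonneg (z i)
    have h6 := norm_nonneg (z j)
    have h7 := norm_nonneg z
    calc B * ‖z i‖ * ‖z j‖ ≤ B * ‖z‖ * ‖z‖ := by gcongr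
      _ = B * ‖z‖ ^ 2 := by ring
  calc ∑ i, ∑ j, bl (h i j) (z i) (z j) ≤ ∑ i : Fin n, ∑ j : Fin n, B * ‖z‖ ^ 2 :=
        Finset.sum_le_sum fun i _ => Finset.sum_le_sum fun j _ => h2 i j
    _ = (B * n ^ 2) * ‖z‖ ^ 2 := by
        simp only [Finset.sum_const, Finset.card_univ, Fintype.card_fin, nsmul_eq_mul]
        ring

/-- conversion to `BG` -/
theorem Bf_BG (hV : Continuous V) {G : E n → Matrix (Fin n) (Fin n) ℝ} {B : ℝ} (h : BM V G B)
    (z e : HV V) {z' e' : Fin n → E n → ℝ} (hz : ∀ i, (z i : E n → ℝ) =ᵐ[mu V] z' i)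
    (he : ∀ i, (e i : E n → ℝ) =ᵐ[mu V] e' i) : K.BG V G z' e' = Bf h z e := by
  rw [Bf_int]
  unfold K.BG
  rw [← K.OP3.integral_muI hV]
  refine integral_congr_ae ?_
  filter_upwards [ae_all_iff.2 hz, ae_all_iff.2 he] with x h1 h2
  refine Finset.sum_congr rfl fun i _ => Finset.sum_congr rfl fun j _ => ?_
  rw [h1 i, h2 j]

/-! ## convergence of forms -/

/-- uniformly bounded functions which converge in `L²` to a constant, tested against `L¹` -/
theorem tends_const [IsFiniteMeasure (mu V)] {f : ℕ → E n → ℝ} {B : ℝ} (hf : ∀ k, BF V (f k) B) {a : ℝ}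
    (hc : Tendsto (fun k => ∫ x, (f k x - a) ^ 2 ∂(mu V)) atTop (𝓝 0)) {g : E n → ℝ}
    (hg : Integrable g (mu V)) :
    Tendsto (fun k => ∫ x, f k x * g x ∂(mu V)) atTop (𝓝 (a * ∫ x, g x ∂(mu V))) := by
  have hm : ∀ k, MemLp (f k) 2 (mu V) := fun k => by
    refine MemLp.of_bound (hf k).meas.aestronglyMeasurable B ?_
    exact (hf k).bd
  have hL : L2to (mu V) f (fun _ => a) := ⟨hm, memLp_const a, hc⟩
  refine tendsto_of_subseq_tendsto fun ns hns => ?_
  have h1 : Tendsto (fun m => (hm (ns m)).toLp (f (ns m))) atTop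
      (𝓝 ((memLp_const a : MemLp (fun _ : E n => a) 2 (mu V)).toLp (fun _ => a))) :=
    hL.tendsto.comp hns
  have h2 := tendstoInMeasure_of_tendsto_Lp h1
  obtain ⟨ms, hms, hae⟩ := h2.exists_seq_tendsto_ae
  refine ⟨ms, ?_⟩
  have hae' : ∀ᵐ x ∂(mu V), Tendsto (fun k => f (ns (ms k)) x * g x) atTop (𝓝 (a * g x)) := by
    have h3 : ∀ᵐ x ∂(mu V), ∀ k, ((hm (ns (ms k))).toLp (f (ns (ms k))) : E n → ℝ) x =
        f (ns (ms k)) x := ae_all_iff.2 fun k => (hm (ns (ms k))).coeFn_toLp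
    filter_upwards [hae, h3, (memLp_const a : MemLp (fun _ : E n => a) 2 (mu V)).coeFn_toLp] with x
      h4 h5 h6
    rw [h6] at h4
    have h7 : Tendsto (fun k => f (ns (ms k)) x) atTop (𝓝 a) := h4.congr fun k => h5 k
    exact h7.mul_const _
  rw [← integral_const_mul]
  refine tendsto_integral_of_dominated_convergence (fun x => B * |g x|)
    (fun k => (hf _).meas.aestronglyMeasurable.mul hg.1) (hg.abs.const_mul B) (fun k => ?_) hae'
  filter_upwards [(hf (ns (ms k))).bd] with x hx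
  rw [norm_mul]
  exact mul_le_mul_of_nonneg_right hx (abs_nonneg _)

theorem Bf_tendsto [IsFiniteMeasure (mu V)] {G : ℕ → E n → Matrix (Fin n) (Fin n) ℝ} {B : ℝ}
    (h : ∀ k, BM V (G k) B)
    (hc : ∀ i j, Tendsto (fun k => ∫ x, (G k x i j - (if i = j then 1 else 0)) ^ 2 ∂(mu V)) atTop
      (𝓝 0)) (z : HV V) :
    Tendsto (fun k => Bf (h k) z z) atTop (𝓝 (‖z‖ ^ 2)) := by
  have h1 : ‖z‖ ^ 2 = ∑ i, ∑ j, (if i = j then (1 : ℝ) else 0) * ∫ x, z i x * z j x ∂(mu V) := by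
    have : ∀ i, ∑ j, (if i = j then (1 : ℝ) else 0) * ∫ x, z i x * z j x ∂(mu V) =
        ∫ x, z i x * z i x ∂(mu V) := by
      intro i
      rw [Finset.sum_eq_single i]
      · simp
      · intro j _ hj
        rw [if_neg (Ne.symm hj), zero_mul]
      · intro hi
        exact absurd (Finset.mem_univ i) hi
    simp only [this]
    rw [PiLp.norm_sq_eq_of_L2]
    refine Finset.sum_congr rfl fun i _ => ?_
    rw [← inner_eq, real_inner_self_eq_norm_sq]
  rw [h1]
  simp only [Bf_apply]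
  refine tendsto_finsetSum _ fun i _ => tendsto_finsetSum _ fun j _ => ?_
  have h2 := tends_const (fun k => h k i j) (hc i j)
    (g := fun x => z i x * z j x) ((Lp.memLp (z i)).integrable_mul (Lp.memLp (z j)))
  refine h2.congr fun k => ?_
  refine integral_congr_ae (Eventually.of_forall fun x => ?_)
  simp only [mul_assoc]

end Vale.Agent.P245.K3
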