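import Vale.Agent.P245.K3.InstC

/-!
P245, KLS block, row INST (independent copy, helper110), part D: `StmtK` from the other rows.
-/

set_option linter.all false

open MeasureTheory Filter Topology
open scoped NNReal ENNReal ContDiff
open Vale.Agent.P227.M Vale.Agent.P227.M.K814 Vale.Agent.P254 Vale.Agent.P254.SN

namespace Vale.Agent.P245.K3

open Vale.Agent.P245.H464 (TE Lt mu mu_ac ac_mu integral_mu memLp_iff exists_meas total)
open Vale.Agent.P245.K.OP3 (DomE L2to inner_toLp1 finite_mu memLp_test integral_muI)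
open Vale.Agent.P245.K (Base KG BG Iso Tends MF CS Mle ip StmtK StmtAbs StmtChain StmtIdent StmtLin StmtGap)

variable {n : ℕ} {V : E n → ℝ} {t : E n → Matrix (Fin n) (Fin n) ℝ} {c C c1 C1 : ℝ}

/-! ## the mean of `t` -/

theorem ex_t (hR : Reg V c1 C1) (hT : TB V t) (hI : Iso V) (i j : Fin n) :
    Ex V (fun x => t x i j) = if i = j then 1 else 0 := by
  have hpd : ∀ (b : Fin n) (x : E n), pd b (fun x : E n => x j) x = if j = b then 1 else 0 :=
    fun b x => rpd_coord b j x
  have h1 := Vale.Agent.P245.Q895.core' hR hT (f := fun x : E n => x j) (ll_coord j)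
    (Eventually.of_forall fun x => rad_diff_coord j x) (Vale.Agent.P245.Q895.PB.coord j)
    (fun b => by
      rw [funext (hpd b)]
      exact Vale.Agent.P245.Q895.PB.const _) i
  have h2 : I V (fun x => Dt t i (fun x : E n => x j) x - x i * x j) =
      I V (fun x => t x i j - x i * x j) := by
    refine I_congr (Eventually.of_forall fun x => ?_)
    have : Dt t i (fun x : E n => x j) x = t x i j := by
      unfold Dt
      simp only [hpd]
      rw [Finset.sum_eq_single j]
      · simp
      · intro b _ hb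
        rw [if_neg (Ne.symm hb), mul_zero]
      · intro hb
        exact absurd (Finset.mem_univ j) hb
    rw [this]
  rw [h2, Vale.Agent.P245.Q895.I_sub' hR (Vale.Agent.P245.Q895.PB.of_gb (gb_t hT i j))
    ((Vale.Agent.P245.Q895.PB.coord i).mul (Vale.Agent.P245.Q895.PB.coord j))] at h1
  rw [← hI.2 i j]
  have h3 : I V (fun x => t x i j) = I V (fun x => x i * x j) := by linarith
  unfold I at h3
  unfold Ex
  rw [h3]

/-! ## the trace lemma -/

theorem tr_nonneg {m : ℕ} {G : Matrix (Fin n) (Fin n) ℝ} (hG : ∀ v : Fin n → ℝ, 0 ≤ ∑ i, ∑ j, G i j * v i * v j)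
    {T : Matrix (Fin m) (Fin m) ℝ} (hT : T.PosSemidef) (p : Fin n → Fin m → ℝ) :
    0 ≤ ∑ i, ∑ j, G i j * ∑ a, ∑ b, T a b * p i a * p j b := by
  obtain ⟨r, v, rfl⟩ := Matrix.posSemidef_iff_eq_sum_vecMulVec.1 hT
  have e : ∑ i, ∑ j, G i j * ∑ a, ∑ b, (∑ k, Matrix.vecMulVec (v k) (star (v k))) a b * p i a * p j b =
      ∑ k, ∑ i, ∑ j, G i j * (∑ a, v k a * p i a) * (∑ b, v k b * p j b) := by
    have e1 : ∀ i j, ∑ a, ∑ b, (∑ k, Matrix.vecMulVec (v k) (star (v k))) a b * p i a * p j b =
        ∑ k, (∑ a, v k a * p i a) * (∑ b, v k b * p j b) := by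
      intro i j
      calc ∑ a, ∑ b, (∑ k, Matrix.vecMulVec (v k) (star (v k))) a b * p i a * p j b
          = ∑ a, ∑ b, ∑ k, (v k a * p i a) * (v k b * p j b) := by
            refine Finset.sum_congr rfl fun a _ => Finset.sum_congr rfl fun b _ => ?_
            rw [Matrix.sum_apply, Finset.sum_mul, Finset.sum_mul]
            refine Finset.sum_congr rfl fun k _ => ?_
            rw [Matrix.vecMulVec_apply, Pi.star_apply, star_trivial]
            ring
        _ = ∑ a, ∑ k, ∑ b, (v k a * p i a) * (v k b * p j b) :=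
            Finset.sum_congr rfl fun a _ => Finset.sum_comm
        _ = ∑ k, ∑ a, ∑ b, (v k a * p i a) * (v k b * p j b) := Finset.sum_comm
        _ = _ := by
            refine Finset.sum_congr rfl fun k _ => ?_
            rw [Finset.sum_mul_sum]
    calc ∑ i, ∑ j, G i j * ∑ a, ∑ b, (∑ k, Matrix.vecMulVec (v k) (star (v k))) a b * p i a * p j b
        = ∑ i, ∑ j, ∑ k, G i j * (∑ a, v k a * p i a) * (∑ b, v k b * p j b) := by
          refine Finset.sum_congr rfl fun i _ => Finset.sum_congr rfl fun j _ => ?_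
          rw [e1, Finset.mul_sum]
          exact Finset.sum_congr rfl fun k _ => by ring
      _ = ∑ i, ∑ k, ∑ j, G i j * (∑ a, v k a * p i a) * (∑ b, v k b * p j b) :=
          Finset.sum_congr rfl fun i _ => Finset.sum_comm
      _ = _ := Finset.sum_comm
  rw [e]
  refine Finset.sum_nonneg fun k _ => hG _


theorem posSemi (hT : TE V t c C) (x : E n) : (t x).PosSemidef := by
  refine Matrix.PosSemidef.of_dotProduct_mulVec_nonneg ?_ fun v => ?_
  · ext i j
    simp [hT.symm x i j]
  · have h1 := hT.low x (WithLp.toLp 2 v)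
    have h3 : 0 ≤ c * ‖(WithLp.toLp 2 v : E n)‖ ^ 2 := mul_nonneg hT.lam_pos.le (by positivity)
    have e : qf (t x) (WithLp.toLp 2 v) = star v ⬝ᵥ (t x).mulVec v := by
      unfold qf dotProduct Matrix.mulVec dotProduct
      refine Finset.sum_congr rfl fun i _ => ?_
      rw [Finset.mul_sum]
      refine Finset.sum_congr rfl fun j _ => ?_
      simp only [Pi.star_apply, star_trivial]
      ring
    rw [← e]
    exact h3.trans h1

/-! ## comparison of the energies -/

theorem kg_int (hT : TE V t c C) {G : E n → Matrix (Fin n) (Fin n) ℝ} {B : ℝ} (h : BM V G B)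
    {Dz De : Fin n → Fin n → E n → ℝ} (hz : ∀ i a, MemLp (Dz i a) 2 (mu V))
    (he : ∀ i a, MemLp (De i a) 2 (mu V)) :
    Integrable (fun x => ∑ i, ∑ j, G x i j * ip t (fun y a => Dz i a y) (fun y a => De j a y) x)
      (mu V) := by
  obtain ⟨Ct, hCt⟩ := hT.bt
  have ht : ∀ a b, BF V (fun x => t x a b) Ct := fun a b =>
    ⟨(gb_t hT.toTB a b).1, Eventually.of_forall fun x => hCt x a b⟩
  refine integrable_finsetSum _ fun i _ => integrable_finsetSum _ fun j _ => ?_
  unfold ip
  simp only [Finset.mul_sum]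
  refine integrable_finsetSum _ fun a _ => integrable_finsetSum _ fun b _ => ?_
  have h1 := ((h i j).memLp ((ht a b).memLp (hz i a))).integrable_mul (he j b)
  refine h1.congr (Eventually.of_forall fun x => ?_)
  simp only [Pi.mul_apply]
  ring

theorem kg_le (hT : TE V t c C) {G G' : E n → Matrix (Fin n) (Fin n) ℝ} {B B' r : ℝ} (h : BM V G B)
    (h' : BM V G' B') (hle : Mle G (fun x => r • G' x)) {Dz : Fin n → Fin n → E n → ℝ}
    (hz : ∀ i a, MemLp (Dz i a) 2 (mu V)) : KG V t G Dz Dz ≤ r * KG V t G' Dz Dz := by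
  unfold KG
  have hV : Continuous V := hT.V2.continuous
  rw [← integral_muI hV, ← integral_muI hV, ← integral_const_mul]
  refine integral_mono_ae (kg_int hT h hz hz) ((kg_int hT h' hz hz).const_mul r) ?_
  filter_upwards [(mu_ac V).ae_le hle] with x hx
  have h1 := tr_nonneg (G := r • G' x - G x) (fun v => by
    have := hx v
    have e : ∑ i, ∑ j, (r • G' x - G x) i j * v i * v j =
        (∑ i, ∑ j, (r • G' x) i j * v i * v j) - ∑ i, ∑ j, G x i j * v i * v j := by
      simp only [← Finset.sum_sub_distrib, Matrix.sub_apply]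
      exact Finset.sum_congr rfl fun i _ => Finset.sum_congr rfl fun j _ => by ring
    rw [e]
    linarith) (posSemi hT x) (fun i a => Dz i a x)
  have e : ∑ i, ∑ j, (r • G' x - G x) i j * ∑ a, ∑ b, t x a b * Dz i a x * Dz j b x =
      r * (∑ i, ∑ j, G' x i j * ∑ a, ∑ b, t x a b * Dz i a x * Dz j b x) -
        ∑ i, ∑ j, G x i j * ∑ a, ∑ b, t x a b * Dz i a x * Dz j b x := by
    rw [Finset.mul_sum, ← Finset.sum_sub_distrib]
    refine Finset.sum_congr rfl fun i _ => ?_
    rw [Finset.mul_sum, ← Finset.sum_sub_distrib]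
    refine Finset.sum_congr rfl fun j _ => ?_
    simp only [Matrix.sub_apply, Matrix.smul_apply, smul_eq_mul]
    ring
  rw [e] at h1
  show (∑ i, ∑ j, G x i j * ∑ a, ∑ b, t x a b * Dz i a x * Dz j b x) ≤
    r * (∑ i, ∑ j, G' x i j * ∑ a, ∑ b, t x a b * Dz i a x * Dz j b x)
  linarith

theorem kg_nonneg (hT : TE V t c C) {G : E n → Matrix (Fin n) (Fin n) ℝ}
    (hG : ∀ᵐ x, ∀ v : Fin n → ℝ, 0 ≤ ∑ i, ∑ j, G x i j * v i * v j)
    (Dz : Fin n → Fin n → E n → ℝ) : 0 ≤ KG V t G Dz Dz := by
  unfold KG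
  have hV : Continuous V := hT.V2.continuous
  rw [← integral_muI hV]
  refine integral_nonneg_of_ae ?_
  filter_upwards [(mu_ac V).ae_le hG] with x hx
  exact tr_nonneg hx (posSemi hT x) (fun i a => Dz i a x)

end Vale.Agent.P245.K3
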